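import Vale.Agent.P032.R2.H492.FieldY
import Vale.Agent.P032.R2.H264.Wd

/-!
# P032: the worlds `PM`, `YW` for the valuation `semAt` of `H264/SemAt.lean`

`pm_of_wd : Wd U T G D → PM G (semAt ..) ..`; `yw_of_wd : Wd U T G D → YH G D → YW G (semAt ..) .. s`;
`TY G S`: the fields `nodir tpY sameY`.
-/

set_option autoImplicit false

open Set Filter Topology Metric

noncomputable section

namespace Vale.Agent.P032.R2.H492

open Vale.Agent.P032.Six Vale.Agent.P032.Words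
open Vale.Agent.P032.S5.H767
open Vale.Agent.P032.R2.H741.Tp (RD Sem lc pc)
open Vale.Agent.P032.R2.H264

variable {U : Fin 6 → Set ℂ} {T : ℂ → Set (Fin 6)} {G : RD} {D : Dat} {L0 L K : Sl G} {u : ℝ}

/-- the world `PM` -/
theorem pm_of_wd (W : Wd U T G D) : PM G (semAt U T G D L0 u L K) U T D.c D.x u where
  wt := W.wt
  cen r hr := W.dpt r (by omega)
  sgl r hr := W.sgl r (by omega)
  sgi r hr := W.sgi r (by omega)
  xi := W.xi
  adj := W.adj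
  hC _ _ _ _ _ _ := Iff.rfl
  hQ _ _ _ _ := Iff.rfl
  hD _ _ _ _ _ _ h := h
  hct _ _ _ _ _ _ := Iff.rfl
  hmin := W.mn
  hH _ _ _ _ := Iff.rfl
  hD' _ _ _ _ _ _ h := h

/-- the point of a letter -/
theorem xl_mem (W : Wd U T G D) (hL : Sel (posX (cen G D) (lts G D)) u L) {r k l : ℕ}
    (h : XL L r k l) (hl : l < 4) : pp D r k u ∈ L4 T G D r ⟨l, hl⟩ := by
  obtain ⟨hr, hk, h1⟩ := h
  have h2 : pp D r k u ∈ D.F r (L (⟨r, hr⟩, ⟨k, hk⟩)) := hL (⟨r, hr⟩, ⟨k, hk⟩)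
  have h3 := W.memL4 hr h2
  have h4 : l4 (L (⟨r, hr⟩, ⟨k, hk⟩)) = ⟨l, hl⟩ := Fin.ext (by rw [l4_val]; exact h1)
  rwa [h4] at h3

/-- the colours of a letter -/
theorem l4_lc (W : Wd U T G D) {r l i : ℕ} {q : ℂ} (hl : l < 4) (hq : q ∈ L4 T G D r ⟨l, hl⟩)
    (hi : i ∈ lc G r l) : D.x i ∈ T q := by
  have h1 := Lt_col W.wt.irr hq
  have : l = 0 ∨ l = 1 ∨ l = 2 ∨ l = 3 := by omega
  rcases this with rfl | rfl | rfl | rfl
  · have h6 : i = G.sg r 4 := by simpa [lc] using hi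
    rw [h6]; exact h1 rfl
  · have h6 : i = G.sg r 5 := by simpa [lc] using hi
    rw [h6]; exact h1 rfl
  · have h6 : i = G.sg r 0 ∨ i = G.sg r 1 := by simpa [lc] using hi
    rcases h6 with h6 | h6 <;> rw [h6]
    exacts [h1 (Or.inl rfl), h1 (Or.inr rfl)]
  · have h6 : i = G.sg r 2 ∨ i = G.sg r 3 := by simpa [lc] using hi
    rcases h6 with h6 | h6 <;> rw [h6]
    exacts [h1 (Or.inl rfl), h1 (Or.inr rfl)]

/-- the letters of `semAt` -/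
theorem sem_mem (W : Wd U T G D) (hL : LimL (posX (cen G D) (lts G D)) (Good (cen G D)) u L)
    (hK : LimR (posX (cen G D) (lts G D)) (Good (cen G D)) u K) {t r k l : ℕ} (ht : t < 2)
    (h : (semAt U T G D L0 u L K).X t r k l) (hl : l < 4) : pp D r k u ∈ L4 T G D r ⟨l, hl⟩ := by
  have ht' : t = 0 ∨ t = 1 := by omega
  rcases ht' with rfl | rfl
  · exact xl_mem W ((W.rings.sys W.wt.irr).limL_sel hL).1 (L := L) h hl
  · exact xl_mem W ((W.rings.sys W.wt.irr).limR_sel hK).1 (L := K) h hl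

/-- the rings with letters only -/
structure YH (G : RD) (D : Dat) : Prop where
  hp : ∀ s, G.R ≤ s → s < G.R + G.Y → G.yp s < 2
  s0 : ∀ s, G.R ≤ s → s < G.R + G.Y → G.sg s 0 = G.sg (G.yr s) (2 - 2 * G.yp s)
  s1 : ∀ s, G.R ≤ s → s < G.R + G.Y → G.sg s 1 = G.sg (G.yr s) 4
  s2 : ∀ s, G.R ≤ s → s < G.R + G.Y → G.sg s 2 = G.sg (G.yr s) (3 - 2 * G.yp s)
  s3 : ∀ s, G.R ≤ s → s < G.R + G.Y → G.sg s 3 = G.sg (G.yr s) 5
  anc : ∀ s, G.R ≤ s → s < G.R + G.Y → G.ya s = true → pt (D.c (G.yr s)) D.u0 = D.c s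

/-- the end contact of a ring with letters only -/
theorem endct_of_wd (W : Wd U T G D) (Y : YH G D) {s : ℕ} (hs : G.R ≤ s) (hs' : s < G.R + G.Y) :
    EndCt T (D.c (G.yr s)) (D.c s) (D.x (G.sg (G.yr s) (2 - 2 * G.yp s)))
      (D.x (G.sg (G.yr s) (3 - 2 * G.yp s))) (D.x (G.sg (G.yr s) (2 * G.yp s)))
      (D.x (G.sg (G.yr s) (2 * G.yp s + 1))) (D.x (G.sg (G.yr s) 4)) (D.x (G.sg (G.yr s) 5)) := by
  have hr := W.yhub s hs hs'
  have hz := W.dpt (G.yr s) (by omega)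
  have hnd := W.nd (r := G.yr s) (by omega)
  have hy := W.dpt s hs'
  rw [Y.s0 s hs hs', Y.s1 s hs hs', Y.s2 s hs hs', Y.s3 s hs hs'] at hy
  have hd : dist (D.c s) (D.c (G.yr s)) = 1 := by rw [dist_comm]; exact W.yadj s hs hs'
  have hpal : T (D.c s) = {D.x (G.sg (G.yr s) (2 - 2 * G.yp s)),
      D.x (G.sg (G.yr s) (3 - 2 * G.yp s)), D.x (G.sg (G.yr s) 4), D.x (G.sg (G.yr s) 5)} := by
    rw [hy.pal]; ext i; simp only [mem_insert_iff, mem_singleton_iff]; tauto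
  have hp := Y.hp s hs hs'
  have : G.yp s = 0 ∨ G.yp s = 1 := by omega
  rcases this with h0 | h0
  · rw [h0] at hy hpal ⊢
    exact ⟨hz.swap, nodup_swap609 hnd, hd, hpal, Or.inl hy⟩
  · rw [h0] at hy hpal ⊢
    exact ⟨hz, hnd, hd, hpal, Or.inl hy⟩

/-- the world `YW` -/
theorem yw_of_wd (W : Wd U T G D) (Y : YH G D)
    (hL : LimL (posX (cen G D) (lts G D)) (Good (cen G D)) u L)
    (hK : LimR (posX (cen G D) (lts G D)) (Good (cen G D)) u K) (h0 : D.u0 ≤ u) {s : ℕ}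
    (hs : G.R ≤ s) (hs' : s < G.R + G.Y) : YW G (semAt U T G D L0 u L K) U T D.c D.x u s where
  wt := W.wt
  hr := W.yhub s hs hs'
  hp := Y.hp s hs hs'
  ct := endct_of_wd W Y hs hs'
  s0 := Y.s0 s hs hs'
  s1 := Y.s1 s hs hs'
  s2 := Y.s2 s hs hs'
  s3 := Y.s3 s hs hs'
  sgl := W.sgl _ (by have := W.yhub s hs hs'; omega)
  sgy := W.sgl _ hs'
  hC _ _ _ _ := Iff.rfl
  hX t ht k hk h := by
    have hp := Y.hp s hs hs'
    have h1 := sem_mem W hL hK ht h (by omega)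
    have : G.yp s = 0 ∨ G.yp s = 1 := by omega
    rcases this with h0 | h0
    · simp only [h0] at h1 ⊢
      exact h1
    · simp only [h0] at h1 ⊢
      exact h1
  hY t ht k hk l hl i hi h := l4_lc W hl (sem_mem W hL hK ht h hl) hi
  anc ha hF := by
    have h1 : u = D.u0 := le_antisymm hF.2 h0
    rw [h1]; exact Y.anc s hs hs' ha

/-- the fields `nodir tpY sameY` of `TF` -/
structure TY (G : RD) (S : Sem) : Prop where
  nodir : ∀ s, G.R ≤ s → s < G.R + G.Y → ∀ k < 6, ¬ (S.X 0 s k 2 ∧ S.X 1 s k 3) ∧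
    ¬ (S.X 0 s k 3 ∧ S.X 1 s k 2)
  tpY : ∀ s, G.R ≤ s → s < G.R + G.Y → ∀ t < 2, ∀ k < 6, ∀ m, 2 ≤ m → m < 4 →
    S.X t (G.yr s) k (2 + G.yp s) → S.X t s k m →
    (G.sg (G.yr s) 4 ∈ lc G s m → S.C (G.yr s) k (G.sg (G.yr s) 4) →
      S.C (G.yr s) k (G.sg (G.yr s) 5)) ∧
    (G.sg (G.yr s) 5 ∈ lc G s m → S.C (G.yr s) k (G.sg (G.yr s) 5) →
      S.C (G.yr s) k (G.sg (G.yr s) 4))
  sameY : ∀ s, G.R ≤ s → s < G.R + G.Y → G.ya s = true → S.F 0 → ∀ t < 2,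
    (∀ l < 4, ∀ i ∈ lc G s l, (S.X t s 2 l → S.C (G.yr s) 1 i) ∧
      (S.X t s 4 l → S.C (G.yr s) 5 i)) ∧ ¬ S.X t s 3 2 ∧ ¬ S.X t s 3 3

theorem ty_of_wd (W : Wd U T G D) (Y : YH G D)
    (hL : LimL (posX (cen G D) (lts G D)) (Good (cen G D)) u L)
    (hK : LimR (posX (cen G D) (lts G D)) (Good (cen G D)) u K) (h0 : D.u0 ≤ u) :
    TY G (semAt U T G D L0 u L K) where
  nodir _ hs hs' := (yw_of_wd W Y hL hK h0 hs hs').nodir
  tpY _ hs hs' := (yw_of_wd W Y hL hK h0 hs hs').tpY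
  sameY _ hs hs' := (yw_of_wd W Y hL hK h0 hs hs').sameY

end Vale.Agent.P032.R2.H492
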