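import Vale.Agent.P032.S5.H483.Irr

/-!
# P032: the wild engine (regions, arcs), geometry-free part

* `Irr.no_cross`: a path whose points carry the colour `c` does not cross the unit circle about a
  point which carries `c`;
* `Irr.path_in`, `Irr.path_out`: consequences near a point `v`.
-/

set_option autoImplicit false

open Set Filter Topology Metric

noncomputable section

namespace Vale.Agent.P032.Six

variable {k : ℕ} {U : Fin k → Set ℂ} {T : ℂ → Set (Fin k)} {c : Fin k}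

/-- **no crossing**: `c` is carried by the points `γ t`, `a < t < b`, and by `w` -/
theorem Irr.no_cross (h : Irr U T) {γ : ℝ → ℂ} {a b : ℝ} (hab : a ≤ b)
    (hγ : ContinuousOn γ (Icc a b)) (hc : ∀ t ∈ Ioo a b, c ∈ T (γ t)) {w : ℂ} (hw : c ∈ T w)
    (h1 : (dist w (γ a) < 1 ∧ 1 < dist w (γ b)) ∨ (1 < dist w (γ a) ∧ dist w (γ b) < 1)) :
    False := by
  have hopen : ∀ᶠ x in 𝓝 w,
      (dist x (γ a) < 1 ∧ 1 < dist x (γ b)) ∨ (1 < dist x (γ a) ∧ dist x (γ b) < 1) := by
    have ha : Continuous fun x : ℂ => dist x (γ a) := continuous_id.dist continuous_const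
    have hb : Continuous fun x : ℂ => dist x (γ b) := continuous_id.dist continuous_const
    rcases h1 with ⟨h1, h2⟩ | ⟨h1, h2⟩
    · filter_upwards [(isOpen_lt ha continuous_const).mem_nhds h1,
        (isOpen_lt continuous_const hb).mem_nhds h2] with x hx hx'
      exact Or.inl ⟨hx, hx'⟩
    · filter_upwards [(isOpen_lt continuous_const ha).mem_nhds h1,
        (isOpen_lt hb continuous_const).mem_nhds h2] with x hx hx'
      exact Or.inr ⟨hx, hx'⟩
  obtain ⟨x, hx, hxa⟩ := ((h.pure w c hw).and_eventually hopen).exists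
  have hxU : x ∈ U c := h.mem_of_single hx.le
  have hcont : ContinuousOn (fun t => dist x (γ t)) (Icc a b) := fun t ht => tendsto_const_nhds.dist (hγ t ht)
  have hex : ∃ t ∈ Ioo a b, dist x (γ t) = 1 := by
    rcases hxa with ⟨h1, h2⟩ | ⟨h1, h2⟩
    · obtain ⟨t, ht, h3⟩ := intermediate_value_Icc hab hcont ⟨h1.le, h2.le⟩
      refine ⟨t, ⟨lt_of_le_of_ne ht.1 ?_, lt_of_le_of_ne ht.2 ?_⟩, h3⟩
      · rintro rfl; exact h1.ne h3
      · rintro rfl; exact h2.ne' h3
    · obtain ⟨t, ht, h3⟩ := intermediate_value_Icc' hab hcont ⟨h2.le, h1.le⟩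
      refine ⟨t, ⟨lt_of_le_of_ne ht.1 ?_, lt_of_le_of_ne ht.2 ?_⟩, h3⟩
      · rintro rfl; exact h1.ne' h3
      · rintro rfl; exact h2.ne h3
  obtain ⟨t, ht, h3⟩ := hex
  exact h.mx.free c x hxU (γ t) (h.sub _ (hc t ht)) h3

/-- a path from `u` whose points carry `c` and which enters `D(v)` arbitrarily early -/
theorem Irr.path_in (h : Irr U T) {γ : ℝ → ℂ} {ε : ℝ} (hγ : ContinuousOn γ (Ico 0 ε))
    (hc : ∀ t ∈ Ioo 0 ε, c ∈ T (γ t)) {v : ℂ} {s : ℝ} (hs : s ∈ Ioo 0 ε)
    (hv : dist (γ s) v < 1) : ∀ᶠ x in 𝓝 v, c ∈ T x → dist x (γ 0) ≤ 1 := by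
  have hb : Continuous fun x : ℂ => dist (γ s) x := continuous_const.dist continuous_id
  filter_upwards [(isOpen_lt hb continuous_const).mem_nhds hv] with x hx hcx
  by_contra hcon
  push Not at hcon
  exact h.no_cross hs.1.le (hγ.mono (Icc_subset_Ico_right hs.2))
    (fun t ht => hc t ⟨ht.1, ht.2.trans hs.2⟩) hcx (Or.inr ⟨hcon, by rw [dist_comm]; exact hx⟩)

/-- a path from `u` whose points carry `c` and which leaves `D(v)` arbitrarily early -/
theorem Irr.path_out (h : Irr U T) {γ : ℝ → ℂ} {ε : ℝ} (hγ : ContinuousOn γ (Ico 0 ε))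
    (hc : ∀ t ∈ Ioo 0 ε, c ∈ T (γ t)) {v : ℂ} {s : ℝ} (hs : s ∈ Ioo 0 ε)
    (hv : 1 < dist (γ s) v) : ∀ᶠ x in 𝓝 v, c ∈ T x → 1 ≤ dist x (γ 0) := by
  have hb : Continuous fun x : ℂ => dist (γ s) x := continuous_const.dist continuous_id
  filter_upwards [(isOpen_lt continuous_const hb).mem_nhds hv] with x hx hcx
  by_contra hcon
  push Not at hcon
  exact h.no_cross hs.1.le (hγ.mono (Icc_subset_Ico_right hs.2))
    (fun t ht => hc t ⟨ht.1, ht.2.trans hs.2⟩) hcx (Or.inl ⟨hcon, by rw [dist_comm]; exact hx⟩)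

end Vale.Agent.P032.Six
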