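import Vale.Agent.P032.R2.H659.Corner

/-!
# P032, CROSS: two two-pair points with the same palette whose circles cross

`z`, `z'` two-pair points with `T z' = T z`, `t` a transversal common point of `S(z)` and `S(z')`
with at most three colours, `e`, `f` the only colours outside `T z`.  Then the two circles have a
common essential letter `e` or `f` at `t`, or one of the letters is there on the whole circle `S(z)`
near `t` and the other one on the whole circle `S(z')` near `t` (then both of them are free at `t`: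
`line_free`).  In particular an exact arc never meets the other circle transversally.  Wild.
-/

open Set Filter Topology Metric

noncomputable section

namespace Vale.Agent.P032.Six

variable {k : ℕ} {U : Fin k → Set ℂ} {T : ℂ → Set (Fin k)}

/-- the colour `l` is in the palettes of all points of `S(z)` near `q` -/
def LC (T : ℂ → Set (Fin k)) (z : ℂ) (l : Fin k) (q : ℂ) : Prop :=
  ∀ᶠ q' in 𝓝[sphere z 1] q, l ∈ T q'

/-- `l` is an essential letter of `S(z)` at `t` -/
def Es (T : ℂ → Set (Fin k)) (z : ℂ) (l : Fin k) (t : ℂ) : Prop :=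
  ∃ᶠ q in 𝓝[sphere z 1] t, LC T z l q

/-- an essential letter is a colour -/
theorem Irr.mem_of_es (h : Irr U T) {z t : ℂ} {l : Fin k} (he : Es T z l t) : l ∈ T t := by
  have e1 : ∀ᶠ q in 𝓝[sphere z 1] t, T q ⊆ T t := mem_nhdsWithin_of_mem_nhds (h.nhd t)
  have e2 : ∀ᶠ q in 𝓝[sphere z 1] t, q ∈ sphere z 1 := self_mem_nhdsWithin
  obtain ⟨q, h1, h2, h3⟩ := (he.and_eventually (e1.and e2)).exists
  exact h2 (h1.self_of_nhdsWithin h3)

/-- a palette inside the palette of the centre has two colours -/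
theorem Irr.two_of_sub (h : Irr U T) {z q : ℂ} (hq : dist q z = 1) (hs : T q ⊆ T z) :
    2 ≤ (T q).ncard := by
  by_contra hcon
  obtain ⟨i, hi⟩ := h.ne q
  have h3 : T q ⊆ {i} := by
    intro j hj
    by_contra hji
    have h4 : ({i, j} : Set (Fin k)) ⊆ T q := by
      rintro m (rfl | hm)
      · exact hi
      · rw [mem_singleton_iff] at hm; subst hm; exact hj
    have h5 := Set.ncard_le_ncard h4 (Set.toFinite _)
    rw [Set.ncard_pair (fun e => hji (by rw [e]; rfl))] at h5
    exact hcon h5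
  exact h.mx.notMem (h.sub _ (hs hi)) hq (h.mem_of_single h3)

/-- points of locally constant palette on the two branches of `S(z)` at `t` -/
theorem Irr.branch_const (h : Irr U T) {z z' t : ℂ} (ht : dist t z = 1) (ht' : dist t z' = 1)
    (hne : z ≠ z') (hne2 : z + z' ≠ 2 * t) {N : Set ℂ} (hN : N ∈ 𝓝 t) :
    (∃ q ∈ N, dist q z = 1 ∧ dist q z' < 1 ∧ ∀ᶠ q' in 𝓝[sphere z 1] q, T q' = T q) ∧
      ∃ q ∈ N, dist q z = 1 ∧ 1 < dist q z' ∧ ∀ᶠ q' in 𝓝[sphere z 1] q, T q' = T q := by
  have hcr : cr (t - z) (t - z') ≠ 0 := by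
    have h1 := cr_ne_of (z := t) (g := z) (V := z') (by rw [dist_comm]; exact ht)
      (by rw [dist_comm]; exact ht') hne hne2
    intro h2
    apply h1
    unfold cr at h2 ⊢
    simp only [Complex.sub_re, Complex.sub_im] at h2 ⊢
    linarith
  obtain ⟨w, hwN, hwo, htw⟩ := _root_.mem_nhds_iff.1 hN
  have hin : ∃ τ : ℝ, τ * cr (t - z) (t - z') < 0 := by
    rcases lt_or_gt_of_ne hcr with h1 | h1
    · exact ⟨1, by linarith⟩
    · exact ⟨-1, by linarith⟩
  have hout : ∃ τ : ℝ, 0 < τ * cr (t - z) (t - z') := by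
    rcases lt_or_gt_of_ne hcr with h1 | h1
    · exact ⟨-1, by linarith⟩
    · exact ⟨1, by linarith⟩
  constructor
  · obtain ⟨τ, hτ⟩ := hin
    obtain ⟨s, h1, h2⟩ := ((arc_in (C := z) ht' hτ).and
      ((tendsto_arc z t τ).eventually (hwo.mem_nhds htw))).exists
    obtain ⟨q, ⟨⟨hq1, hq2⟩, hq3⟩, hq4⟩ := h.const (S := sphere z 1)
      (y := z + (t - z) * cis (τ * s)) (dist_arc ht _)
      (V := w ∩ {x | dist x z' < 1}) (inter_mem (hwo.mem_nhds h2)
        ((isOpen_lt (by fun_prop) continuous_const).mem_nhds h1))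
    exact ⟨q, hwN hq1, hq3, hq2, hq4⟩
  · obtain ⟨τ, hτ⟩ := hout
    obtain ⟨s, h1, h2⟩ := ((arc_out (C := z) ht' hτ).and
      ((tendsto_arc z t τ).eventually (hwo.mem_nhds htw))).exists
    obtain ⟨q, ⟨⟨hq1, hq2⟩, hq3⟩, hq4⟩ := h.const (S := sphere z 1)
      (y := z + (t - z) * cis (τ * s)) (dist_arc ht _)
      (V := w ∩ {x | 1 < dist x z'}) (inter_mem (hwo.mem_nhds h2)
        ((isOpen_lt continuous_const (by fun_prop)).mem_nhds h1))
    exact ⟨q, hwN hq1, hq3, hq2, hq4⟩

/-- at a point of the circle of a two-pair point no colour of the centre is on both sides -/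
theorem Irr.one_side (h : Irr U T) {z t : ℂ} {a b c d : Fin k} (hz : DPt T z a b c d)
    (ht : dist t z = 1) {i : Fin k} (hi : i ∈ T z) :
    (∀ᶠ x in 𝓝 t, 1 < dist x z → i ∉ Pal U x) ∨ ∀ᶠ x in 𝓝 t, dist x z < 1 → i ∉ Pal U x := by
  rw [hz.pal] at hi
  simp only [mem_insert_iff, mem_singleton_iff] at hi
  have s1 := h.sides hz ht
  have s2 := h.sides hz.swap ht
  rcases hi with rfl | rfl | rfl | rfl
  · rcases s1 with s | s
    · exact Or.inl (s.mono fun x hx => hx.1)
    · exact Or.inr (s.mono fun x hx => hx.2)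
  · rcases s1 with s | s
    · exact Or.inr (s.mono fun x hx => hx.2)
    · exact Or.inl (s.mono fun x hx => hx.1)
  · rcases s2 with s | s
    · exact Or.inl (s.mono fun x hx => hx.1)
    · exact Or.inr (s.mono fun x hx => hx.2)
  · rcases s2 with s | s
    · exact Or.inr (s.mono fun x hx => hx.2)
    · exact Or.inl (s.mono fun x hx => hx.1)

/-- **No exact arcs across.** At a transversal common point `t` with at most three colours of `S(z)`
and of the circle of a two-pair point `z'` with `T z ⊆ T z'` some colour outside `T z` is an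
essential letter of `S(z)`. -/
theorem Irr.cross_es (h : Irr U T) {z z' t : ℂ} {a b c d : Fin k} (hz' : DPt T z' a b c d)
    (hT : T z ⊆ T z') (ht : dist t z = 1) (ht' : dist t z' = 1) (hne : z ≠ z')
    (hne2 : z + z' ≠ 2 * t) (h3 : (T t).ncard ≤ 3) : ∃ l, l ∉ T z ∧ Es T z l t := by
  by_contra hcon
  push Not at hcon
  have e1 : ∀ᶠ q in 𝓝 t, q ∈ sphere z 1 → ∀ l, l ∉ T z → ¬ LC T z l q := by
    have e0 : ∀ l, ∀ᶠ q in 𝓝 t, q ∈ sphere z 1 → l ∉ T z → ¬ LC T z l q := by
      intro l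
      by_cases hl : l ∈ T z
      · exact Eventually.of_forall fun q _ h0 => absurd hl h0
      · have h4 := hcon l hl
        unfold Es at h4
        rw [not_frequently] at h4
        filter_upwards [eventually_nhdsWithin_iff.1 h4] with q h5 h6 _
        exact h5 h6
    filter_upwards [eventually_all.2 e0] with q h5 h6 l
    exact h5 l h6
  have e2 : ∀ᶠ x in 𝓝 t, ∀ i, i ∈ T z' → (1 < dist x z' → i ∉ Pal U x) ∨
      (dist x z' < 1 → i ∉ Pal U x) := by
    refine eventually_all.2 fun i => ?_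
    by_cases hi : i ∈ T z'
    · rcases h.one_side hz' ht' hi with h5 | h5
      · exact h5.mono fun x hx _ => Or.inl hx
      · exact h5.mono fun x hx _ => Or.inr hx
    · exact Eventually.of_forall fun x h0 => absurd h0 hi
  -- one side for all points near `t`
  have e3 : ∃ A : Set (Fin k), ∀ᶠ x in 𝓝 t, ∀ i, i ∈ T z' →
      (i ∈ A → 1 < dist x z' → i ∉ Pal U x) ∧ (i ∉ A → dist x z' < 1 → i ∉ Pal U x) := by
    refine ⟨{i | ∀ᶠ x in 𝓝 t, 1 < dist x z' → i ∉ Pal U x}, eventually_all.2 fun i => ?_⟩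
    by_cases hi : i ∈ T z'
    · by_cases hA : ∀ᶠ x in 𝓝 t, 1 < dist x z' → i ∉ Pal U x
      · filter_upwards [hA] with x hx _
        exact ⟨fun _ => hx, fun h0 => absurd hA h0⟩
      · have h5 := (h.one_side hz' ht' hi).resolve_left hA
        filter_upwards [h5] with x hx _
        exact ⟨fun h0 => absurd h0 hA, fun _ => hx⟩
    · exact Eventually.of_forall fun x h0 => absurd h0 hi
  obtain ⟨A, hA⟩ := e3
  obtain ⟨⟨q, hqN, hq1, hq2, hq3⟩, ⟨q', hqN', hq1', hq2', hq3'⟩⟩ :=
    h.branch_const ht ht' hne hne2 (inter_mem (inter_mem e1 hA) (h.nhd t))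
  have key : ∀ p, p ∈ sphere z 1 → (∀ l, l ∉ T z → ¬ LC T z l p) →
      (∀ᶠ r in 𝓝[sphere z 1] p, T r = T p) → T p ⊆ T z := by
    intro p hp h5 h6 l hl
    by_contra h7
    exact h5 l h7 (h6.mono fun r hr => by rw [hr]; exact hl)
  have k1 : T q ⊆ T z := key q hq1 (hqN.1.1 hq1) hq3
  have k2 : T q' ⊆ T z := key q' hq1' (hqN'.1.1 hq1') hq3'
  have hd : Disjoint (T q) (T q') := by
    rw [Set.disjoint_left]
    intro i hi hi'
    have hi2 := hT (k1 hi)
    by_cases hiA : i ∈ A
    · exact (hqN'.1.2 i hi2).1 hiA hq2' (h.sub _ hi')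
    · exact (hqN.1.2 i hi2).2 hiA hq2 (h.sub _ hi)
  have hu : T q ∪ T q' ⊆ T t := union_subset hqN.2 hqN'.2
  have h5 := Set.ncard_le_ncard hu (Set.toFinite _)
  rw [Set.ncard_union_eq hd (Set.toFinite _) (Set.toFinite _)] at h5
  have h6 := h.two_of_sub hq1 k1
  have h7 := h.two_of_sub hq1' k2
  omega

/-- if `e` is an essential letter of `S(z)` at `t` and `f` is not, then `e` is on the whole circle
near `t`, provided `e`, `f` are colours of `t`, which has at most three colours -/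
theorem Irr.lc_of_es (h : Irr U T) {z t : ℂ} {e f : Fin k} (hcov : ∀ i, i ∈ T z ∨ i = e ∨ i = f)
    (he : e ∉ T z) (hf : f ∉ T z) (hef : e ≠ f) (ht : dist t z = 1) (h3 : (T t).ncard ≤ 3)
    (het : e ∈ T t) (hft : f ∈ T t) (hnf : ¬ Es T z f t) : LC T z e t := by
  unfold Es at hnf
  rw [not_frequently] at hnf
  by_contra hcon
  have hcon' : ∃ᶠ q in 𝓝[sphere z 1] t, e ∉ T q := Filter.not_eventually.1 hcon
  obtain ⟨w, hw, hwo, htw⟩ := _root_.mem_nhds_iff.1
    (inter_mem (eventually_nhdsWithin_iff.1 hnf) (h.nhd t))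
  have e1 : ∀ᶠ q in 𝓝[sphere z 1] t, q ∈ w := mem_nhdsWithin_of_mem_nhds (hwo.mem_nhds htw)
  have e2 : ∀ᶠ q in 𝓝[sphere z 1] t, q ∈ sphere z 1 := self_mem_nhdsWithin
  obtain ⟨q, h1, h2, h4⟩ := (hcon'.and_eventually (e1.and e2)).exists
  obtain ⟨p, ⟨⟨hp1, hp2⟩, hp3⟩, hp4⟩ := h.const (S := sphere z 1) (y := q) h4
    (V := w ∩ {x | T x ⊆ T q}) (inter_mem (hwo.mem_nhds h2) (h.nhd q))
  have hpe : e ∉ T p := fun h5 => h1 (hp2 h5)
  have hpf : f ∉ T p := by
    intro h5
    exact (hw hp1).1 hp3 (hp4.mono fun r hr => by rw [hr]; exact h5)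
  have hps : T p ⊆ T z := by
    intro i hi
    rcases hcov i with h5 | rfl | rfl
    · exact h5
    · exact absurd hi hpe
    · exact absurd hi hpf
  have h5 := h.two_of_sub hp3 hps
  have h6 : insert e (insert f (T p)) ⊆ T t := by
    rintro i (rfl | rfl | hi)
    · exact het
    · exact hft
    · exact (hw hp1).2 hi
  have h7 := Set.ncard_le_ncard h6 (Set.toFinite _)
  rw [Set.ncard_insert_of_notMem (by
      rintro (h8 | h8)
      · exact hef h8
      · exact hpe h8) (Set.toFinite _),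
    Set.ncard_insert_of_notMem hpf (Set.toFinite _)] at h7
  omega

/-- **CROSS.** -/
theorem Irr.cross (h : Irr U T) {z z' t : ℂ} {a b c d a' b' c' d' e f : Fin k}
    (hz : DPt T z a b c d) (hz' : DPt T z' a' b' c' d') (hT : T z' = T z)
    (hcov : ∀ i, i ∈ T z ∨ i = e ∨ i = f) (he : e ∉ T z) (hf : f ∉ T z) (hef : e ≠ f)
    (ht : dist t z = 1) (ht' : dist t z' = 1) (hne : z ≠ z') (hne2 : z + z' ≠ 2 * t)
    (h3 : (T t).ncard ≤ 3) :
    (Es T z e t ∧ Es T z' e t) ∨ (Es T z f t ∧ Es T z' f t) ∨ (LC T z e t ∧ LC T z' f t) ∨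
      (LC T z f t ∧ LC T z' e t) := by
  have a1 : Es T z e t ∨ Es T z f t := by
    obtain ⟨l, hl, hl2⟩ := h.cross_es hz' hT.ge ht ht' hne hne2 h3
    rcases hcov l with h1 | rfl | rfl
    · exact absurd h1 hl
    · exact Or.inl hl2
    · exact Or.inr hl2
  have a2 : Es T z' e t ∨ Es T z' f t := by
    obtain ⟨l, hl, hl2⟩ := h.cross_es (z := z') (z' := z) hz hT.le ht' ht hne.symm
      (by rw [add_comm]; exact hne2) h3
    rw [hT] at hl
    rcases hcov l with h1 | rfl | rfl
    · exact absurd h1 hl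
    · exact Or.inl hl2
    · exact Or.inr hl2
  have hcov' : ∀ i, i ∈ T z' ∨ i = e ∨ i = f := by rw [hT]; exact hcov
  have he' : e ∉ T z' := by rw [hT]; exact he
  have hf' : f ∉ T z' := by rw [hT]; exact hf
  by_cases b1 : Es T z e t <;> by_cases b2 : Es T z' e t
  · exact Or.inl ⟨b1, b2⟩
  · by_cases b3 : Es T z f t
    · exact Or.inr (Or.inl ⟨b3, a2.resolve_left b2⟩)
    · have b4 := a2.resolve_left b2
      have m1 := h.mem_of_es b1
      have m2 := h.mem_of_es b4
      exact Or.inr (Or.inr (Or.inl ⟨h.lc_of_es hcov he hf hef ht h3 m1 m2 b3,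
        h.lc_of_es (fun i => (hcov' i).imp_right Or.symm) hf' he' hef.symm ht' h3 m2 m1 b2⟩))
  · by_cases b3 : Es T z' f t
    · exact Or.inr (Or.inl ⟨a1.resolve_left b1, b3⟩)
    · have b4 := a1.resolve_left b1
      have m1 := h.mem_of_es b4
      have m2 := h.mem_of_es b2
      exact Or.inr (Or.inr (Or.inr ⟨h.lc_of_es (fun i => (hcov i).imp_right Or.symm) hf he hef.symm
        ht h3 m1 m2 b1, h.lc_of_es hcov' he' hf' hef ht' h3 m2 m1 b3⟩))
  · exact Or.inr (Or.inl ⟨a1.resolve_left b1, a2.resolve_left b2⟩)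

/-- two colours: CROSS without the exceptional case if `t` is in no open set -/
theorem Irr.cross_two_notMem (h : Irr U T) {z z' t : ℂ} (ht : dist t z = 1) (ht' : dist t z' = 1)
    (hne : z ≠ z') (hne2 : z + z' ≠ 2 * t) {i j : Fin k} (h2 : T t ⊆ {i, j})
    (hi : i ∈ T t) (hz : i ∈ Pal U z) (hz' : i ∈ Pal U z') : False := by
  have hX : t ∈ XX U := h.mem_XX ht hi hz
  obtain ⟨y, hy, hjy⟩ := h.partner_XX hX j
  rcases h.lemmaB h2 ht hy hz hjy with h5 | h5 <;> rcases h.lemmaB h2 ht' hy hz' hjy with h6 | h6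
  · exact hne (h5.symm.trans h6)
  · exact hne2 (by rw [← h5]; linear_combination h6)
  · exact hne2 (by rw [← h6]; linear_combination h5)
  · exact hne (by linear_combination h5 - h6)

/-- **No exact arc across, pointwise**: the palette of a transversal common point with at most two
colours is disjoint from the common colours of the centres -/
theorem Irr.cross_disj (h : Irr U T) {z z' t : ℂ} (ht : dist t z = 1) (ht' : dist t z' = 1)
    (hne : z ≠ z') (hne2 : z + z' ≠ 2 * t) (h2 : (T t).ncard ≤ 2) {i : Fin k} (hi : i ∈ T t)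
    (hz : i ∈ T z) : i ∉ T z' := by
  intro hz'
  have h3 : ∃ j, T t ⊆ {i, j} := by
    by_cases h4 : T t ⊆ {i}
    · exact ⟨i, fun m hm => Or.inl (h4 hm)⟩
    · obtain ⟨j, hj, hji⟩ := not_subset.1 h4
      refine ⟨j, fun m hm => ?_⟩
      by_contra h5
      have h6 : ({i, j, m} : Set (Fin k)) ⊆ T t := by
        rintro n (rfl | rfl | hn)
        · exact hi
        · exact hj
        · rw [mem_singleton_iff] at hn; subst hn; exact hm
      have h7 := Set.ncard_le_ncard h6 (Set.toFinite _)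
      have h8 : ({i, j, m} : Set (Fin k)).ncard = 3 := by
        rw [Set.ncard_eq_three]
        refine ⟨i, j, m, fun e => hji (by rw [e]; rfl), fun e => h5 (Or.inl e.symm),
          fun e => h5 (Or.inr (by rw [e]; rfl)), rfl⟩
      omega
  obtain ⟨j, hj⟩ := h3
  exact h.cross_two_notMem ht ht' hne hne2 hj hi (h.sub _ hz) (h.sub _ hz')

end Vale.Agent.P032.Six
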