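import Vale.Agent.P032.R2.H492.Cross
import Vale.Agent.P032.R2.H784.Ring

/-!
# P032, CROSS for coupled rings

Two clusters of coupled rings (possibly the same), two-pair centres `z`, `z'` with the same palette,
a transversal common point `t` of their circles with at most three colours, read at the time `s` in
the first and at the time `s'` in the second cluster: there are legal selections of both clusters at
these times with the same single letter (one of the two colours outside `T z`) at `t`.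
-/

open Set Filter Topology Metric

noncomputable section

namespace Vale.Agent.P032.S5.H767

open Vale.Agent.P032.Six Vale.Agent.P032.Words

variable {U : Fin 6 → Set ℂ} {T : ℂ → Set (Fin 6)} {ι Λ ι' Λ' : Type}

/-- neighbouring positions are at distance one -/
theorem nb_dist {c : ι → ℂ} {p p' : ι × Fin 6} (hN : Nb c p p') (t : ℝ) :
    dist (pos c p t) (pos c p' t) = 1 := by
  rcases hN with ⟨h1, h2⟩ | ⟨h1, h2⟩
  · unfold pos
    rw [← h1]
    have k6 : ∀ a : Fin 6, ∀ s : ℝ, dist (pt (c p.1) (s + (a.val : ℝ)))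
        (pt (c p.1) (s + ((a + 1 : Fin 6).val : ℝ))) = 1 := by
      intro a s
      by_cases ha : a.val = 5
      · have e : (a + 1 : Fin 6) = 0 := by
          apply Fin.ext; simp [Fin.val_add, ha]
        rw [e, ha]
        have e2 := dist_pt_one (c p.1) (s + ((5 : ℕ) : ℝ))
        have e3 : s + ((5 : ℕ) : ℝ) + 1 = s + ((0 : Fin 6).val : ℝ) + 6 := by
          simp only [Fin.val_zero]; push_cast; ring
        rwa [e3, pt_six] at e2
      · have e : (a + 1 : Fin 6).val = a.val + 1 := by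
          have := a.isLt
          rw [Fin.val_add, show ((1 : Fin 6).val) = 1 from rfl, Nat.mod_eq_of_lt (by omega)]
        rw [e]
        have e2 := dist_pt_one (c p.1) (s + (a.val : ℝ))
        have e3 : s + (a.val : ℝ) + 1 = s + ((a.val + 1 : ℕ) : ℝ) := by push_cast; ring
        rwa [e3] at e2
    rcases h2 with h2 | h2
    · rw [h2]; exact k6 p.2 t
    · rw [h2, dist_comm]; exact k6 p'.2 t
  · have hd : pos c p' t = pos c p t + (c p'.1 - c p.1) := by
      unfold pos pt; rw [h2]; ring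
    rw [hd, dist_eq_norm, show pos c p t - (pos c p t + (c p'.1 - c p.1)) = c p.1 - c p'.1 by ring,
      ← dist_eq_norm]
    exact h1

theorem Nb.symm {c : ι → ℂ} {p p' : ι × Fin 6} (hN : Nb c p p') : Nb c p' p := by
  rcases hN with ⟨h1, h2⟩ | ⟨h1, h2⟩
  · exact Or.inl ⟨h1.symm, h2.symm⟩
  · exact Or.inr ⟨by rw [dist_comm]; exact h1, h2.symm⟩

theorem Nb.ne {c : ι → ℂ} {p p' : ι × Fin 6} (hN : Nb c p p') : p ≠ p' := by
  rintro rfl
  have := nb_dist hN 0
  rw [dist_self] at this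
  exact zero_ne_one this

/-- an essential colour gives a legal selection at the instant -/
theorem Rings.sel_of_es [Finite ι] [Finite Λ] {c : ι → ℂ} {col : ι → Λ → Set (Fin 6)}
    {F : ι → Λ → Set ℂ} (h : Irr U T) (R : Rings T c col F) {p : ι × Fin 6} {s : ℝ} {l : Λ}
    {e : Fin 6} (hF : ∀ q, dist q (c p.1) = 1 → e ∈ T q → q ∈ F p.1 l)
    (he : Es T (c p.1) e (pos c p s)) :
    ∃ g, Sel (posX c F) s g ∧ Legal (Conf c col) g ∧ g p = l := by
  classical
  have S := R.sys h
  by_contra hcon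
  push Not at hcon
  have key : ∀ᶠ v in 𝓝 s, ¬ LC T (c p.1) e (pos c p v) := by
    filter_upwards [eventually_eventually_nhds.2 (S.near s)] with v hv hl
    have hc : Continuous fun w : ℝ => pos c p w := (continuous_pt _).comp (by fun_prop)
    have h1 : ∀ᶠ w in 𝓝 v, w ∈ posX c F p l := by
      have h2 : Tendsto (fun w : ℝ => pos c p w) (𝓝 v) (𝓝[sphere (c p.1) 1] (pos c p v)) :=
        tendsto_nhdsWithin_iff.2 ⟨hc.tendsto v, Eventually.of_forall fun w => dist_pt _ _⟩
      filter_upwards [h2.eventually hl] with w hw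
      exact hF _ (dist_pt _ _) hw
    obtain ⟨w, hw, hwo, hvw⟩ := _root_.mem_nhds_iff.1 (h1.and hv)
    obtain ⟨v', hv1, hv2⟩ := S.good_open_dense.2.exists_mem_open hwo ⟨v, hvw⟩
    obtain ⟨g0, hg0⟩ := S.exists_sel v'
    have hs : Sel (posX c F) v' (Function.update g0 p l) := by
      intro p'
      rcases eq_or_ne p' p with rfl | hp
      · rw [Function.update_self]; exact (hw hv2).1
      · rw [Function.update_of_ne hp]; exact hg0 p'
    exact hcon _ ((hw hv2).2 _ hs) (S.legal_of_gen hv1.1 hv1.2 hs) (Function.update_self _ _ _)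
  have h3 : ∀ᶠ v in 𝓝 (s + (p.2.val : ℝ)), ¬ LC T (c p.1) e (pt (c p.1) v) := by
    have h2 : Tendsto (fun v : ℝ => v - (p.2.val : ℝ)) (𝓝 (s + (p.2.val : ℝ))) (𝓝 s) := by
      have : Continuous fun v : ℝ => v - (p.2.val : ℝ) := by fun_prop
      have h3 := this.tendsto (s + (p.2.val : ℝ))
      simpa using h3
    filter_upwards [h2.eventually key] with v hv
    have hv' : ¬ LC T (c p.1) e (pt (c p.1) (v - (p.2.val : ℝ) + (p.2.val : ℝ))) := hv
    simpa using hv'
  exact he (ev_sphere' (p := fun q => ¬ LC T (c p.1) e q) h3)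

/-- a colour on the whole circle of another centre gives a legal selection at the instant -/
theorem Rings.sel_of_lc [Finite ι] [Finite Λ] {c : ι → ℂ} {col : ι → Λ → Set (Fin 6)}
    {F : ι → Λ → Set ℂ} (h : Irr U T) (R : Rings T c col F) {p : ι × Fin 6} {s : ℝ} {l : Λ}
    {e : Fin 6} {z : ℂ} (hF : ∀ q, dist q (c p.1) = 1 → e ∈ T q → q ∈ F p.1 l)
    (hcol : col p.1 l ⊆ {e}) (hz : dist (pos c p s) z = 1) (hlc : LC T z e (pos c p s))
    (hfree : ∀ p', Nb c p p' → pos c p' s ≠ z ∧ pos c p' s + z ≠ 2 * pos c p s) :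
    ∃ g, Sel (posX c F) s g ∧ Legal (Conf c col) g ∧ g p = l := by
  classical
  have S := R.sys h
  obtain ⟨g0, hg0, hl0⟩ := S.exists_legal s
  have hz' : pos c p s ∈ sphere z 1 := hz
  have he : e ∈ T (pos c p s) := hlc.self_of_nhdsWithin hz'
  have hoff : ∀ p', Nb c p p' → e ∉ col p'.1 (g0 p') := by
    intro p' hN h1
    have h2 : e ∈ Pal U (pos c p' s) := h.sub _ (R.sub p'.1 (g0 p') _ (dist_pt _ _) (hg0 p') h1)
    exact line_free h hz hlc (nb_dist hN s) (hfree p' hN).1 (hfree p' hN).2 h2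
  refine ⟨Function.update g0 p l, fun p' => ?_, fun x y hC => ?_, Function.update_self _ _ _⟩
  · rcases eq_or_ne p' p with rfl | hp
    · rw [Function.update_self]; exact hF _ (dist_pt _ _) he
    · rw [Function.update_of_ne hp]; exact hg0 p'
  · obtain ⟨hN, j, hj, hj'⟩ := hC
    rcases eq_or_ne x p with rfl | hx
    · have hy : y ≠ x := hN.ne.symm
      rw [Function.update_self] at hj
      rw [Function.update_of_ne hy] at hj'
      have h1 : j = e := hcol hj
      rw [h1] at hj'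
      exact hoff y hN hj'
    · rw [Function.update_of_ne hx] at hj
      rcases eq_or_ne y p with rfl | hy
      · rw [Function.update_self] at hj'
        have h1 : j = e := hcol hj'
        rw [h1] at hj
        exact hoff x hN.symm hj
      · rw [Function.update_of_ne hy] at hj'
        exact hl0 x y ⟨hN, j, hj, hj'⟩

theorem es_of_lc {z t : ℂ} {l : Fin 6} (ht : dist t z = 1) (hl : LC T z l t) : Es T z l t := by
  have h1 : ∀ᶠ q in 𝓝[sphere z 1] t, LC T z l q := eventually_eventually_nhdsWithin.2 hl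
  have h2 : t ∈ sphere z 1 := ht
  intro h3
  exact (h3.self_of_nhdsWithin h2) (h1.self_of_nhdsWithin h2)

/-- **CROSS, selection form.** -/
theorem cross_sel [Finite ι] [Finite Λ] [Finite ι'] [Finite Λ'] {c : ι → ℂ}
    {col : ι → Λ → Set (Fin 6)} {F : ι → Λ → Set ℂ} {c' : ι' → ℂ} {col' : ι' → Λ' → Set (Fin 6)}
    {F' : ι' → Λ' → Set ℂ} (h : Irr U T) (R : Rings T c col F) (R' : Rings T c' col' F')
    {p : ι × Fin 6} {p' : ι' × Fin 6} {s s' : ℝ} {l m : Λ} {l' m' : Λ'}
    {a b x y a' b' x' y' e f : Fin 6} (hz : DPt T (c p.1) a b x y)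
    (hz' : DPt T (c' p'.1) a' b' x' y') (hT : T (c' p'.1) = T (c p.1))
    (hcov : ∀ i, i ∈ T (c p.1) ∨ i = e ∨ i = f) (he : e ∉ T (c p.1)) (hf : f ∉ T (c p.1))
    (hef : e ≠ f) (hpos : pos c p s = pos c' p' s') (hne : c p.1 ≠ c' p'.1)
    (hne2 : c p.1 + c' p'.1 ≠ 2 * pos c p s) (h3 : (T (pos c p s)).ncard ≤ 3)
    (hl : ∀ q, dist q (c p.1) = 1 → e ∈ T q → q ∈ F p.1 l)
    (hm : ∀ q, dist q (c p.1) = 1 → f ∈ T q → q ∈ F p.1 m)
    (hl' : ∀ q, dist q (c' p'.1) = 1 → e ∈ T q → q ∈ F' p'.1 l')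
    (hm' : ∀ q, dist q (c' p'.1) = 1 → f ∈ T q → q ∈ F' p'.1 m')
    (hcl' : col' p'.1 l' ⊆ {e}) (hcm' : col' p'.1 m' ⊆ {f})
    (hfree : ∀ r, Nb c' p' r → pos c' r s' ≠ c p.1 ∧ pos c' r s' + c p.1 ≠ 2 * pos c p s) :
    ((∃ g, Sel (posX c F) s g ∧ Legal (Conf c col) g ∧ g p = l) ∧
      ∃ g, Sel (posX c' F') s' g ∧ Legal (Conf c' col') g ∧ g p' = l') ∨
    ((∃ g, Sel (posX c F) s g ∧ Legal (Conf c col) g ∧ g p = m) ∧
      ∃ g, Sel (posX c' F') s' g ∧ Legal (Conf c' col') g ∧ g p' = m') := by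
  have ht : dist (pos c p s) (c p.1) = 1 := dist_pt _ _
  have ht' : dist (pos c p s) (c' p'.1) = 1 := by rw [hpos]; exact dist_pt _ _
  have hfree' : ∀ r, Nb c' p' r → pos c' r s' ≠ c p.1 ∧
      pos c' r s' + c p.1 ≠ 2 * pos c' p' s' := by
    intro r hr; rw [← hpos]; exact hfree r hr
  rcases h.cross hz hz' hT hcov he hf hef ht ht' hne hne2 h3 with ⟨h1, h2⟩ | ⟨h1, h2⟩ |
      ⟨h1, -⟩ | ⟨h1, -⟩
  · rw [hpos] at h2
    exact Or.inl ⟨R.sel_of_es h hl h1, R'.sel_of_es h hl' h2⟩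
  · rw [hpos] at h2
    exact Or.inr ⟨R.sel_of_es h hm h1, R'.sel_of_es h hm' h2⟩
  · refine Or.inl ⟨R.sel_of_es h hl (es_of_lc ht h1), ?_⟩
    rw [hpos] at h1 ht
    exact R'.sel_of_lc h hl' hcl' ht h1 hfree'
  · refine Or.inr ⟨R.sel_of_es h hm (es_of_lc ht h1), ?_⟩
    rw [hpos] at h1 ht
    exact R'.sel_of_lc h hm' hcm' ht h1 hfree'

end Vale.Agent.P032.S5.H767
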