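import Vale.Agent.P032.R2.H609.W2E
import Vale.Agent.P032.R2.H659.Contact
import Vale.Agent.P032.R2.H137.Slots

/-!
# P032: the clause families `single`, `notsub`, `face`, `facehub`, `insub`, `inside`, `two`

Points at distance one, palettes `T`.  General points first, then the points of the rings: `pt z v` and its
neighbours `pt z (v + 1)`, `pt z (v - 1)`, and the partner `pt y v` of a centre `y` at distance one.
-/

set_option autoImplicit false

open Set Filter Topology Metric

noncomputable section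

namespace Vale.Agent.P032.R2.H492

open Vale.Agent.P032.Six Vale.Agent.P032.Words
open Vale.Agent.P032.S5.H767 (pt dist_pt dist_pt_one pt_three pt_sum pt_six pt_off tri pos)

variable {U : Fin 6 → Set ℂ} {T : ℂ → Set (Fin 6)} {p q u v z y : ℂ} {a b c d i j m t : Fin 6}

/-! ## General points -/

/-- **face** -/
theorem face (h : Irr U T) {s : Set (Fin 6)} (F : Fc T u s) (hpu : dist p u = 1)
    (hpv : dist p v = 1) (hne : v ≠ u) (hne2 : v + u ≠ 2 * p) (ht : T p ⊆ insert t s) :
    t ∉ T v := fun htv => by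
  rcases F.lemmaX h hpu ht hpv (h.sub _ htv) with h1 | h1
  exacts [hne h1, hne2 h1]

/-- **face**, a point `u` with at most three colours -/
theorem face3 (h : Irr U T) (h3 : (T u).ncard ≤ 3) (hpu : dist p u = 1)
    (hpv : dist p v = 1) (hne : v ≠ u) (hne2 : v + u ≠ 2 * p) (ht : T p ⊆ insert t (T u)) :
    t ∉ T v := face h (h.fc_three h3) hpu hpv hne hne2 ht

/-- **notsub** -/
theorem notsub (h : Irr U T) (hpq : dist p q = 1) (h3 : (T q).ncard ≤ 3) (hs : T p ⊆ T q) : False :=
  h.not_sub hpq h3 hs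

/-- a point at distance one off the line -/
theorem exists_off (hpq : dist p q = 1) : ∃ u, dist p u = 1 ∧ q ≠ u ∧ q + u ≠ 2 * p := by
  have hn : ‖q - p‖ = 1 := by rw [← dist_eq_norm, dist_comm]; exact hpq
  have hne : q - p ≠ 0 := by
    intro h0
    rw [h0, norm_zero] at hn
    exact zero_ne_one hn
  refine ⟨p + Complex.I * (q - p), ?_, ?_, ?_⟩
  · rw [dist_eq_norm, show p - (p + Complex.I * (q - p)) = -(Complex.I * (q - p)) by ring, norm_neg,
      norm_mul, Complex.norm_I, hn, one_mul]
  · intro h1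
    have h2 : (q - p) * (1 - Complex.I) = 0 := by linear_combination h1
    rcases mul_eq_zero.1 h2 with h3 | h3
    · exact hne h3
    · have := congrArg Complex.re h3
      norm_num at this
  · intro h1
    have h2 : (q - p) * (1 + Complex.I) = 0 := by linear_combination h1
    rcases mul_eq_zero.1 h2 with h3 | h3
    · exact hne h3
    · have := congrArg Complex.re h3
      norm_num at this

/-- **single** -/
theorem single (h : Irr U T) (hpq : dist p q = 1) (hp : T p ⊆ {i}) : i ∉ T q := by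
  intro hi
  obtain ⟨u, hu, h1, h2⟩ := exists_off hpq
  have h3 : ∀ᶠ x in 𝓝[sphere u 1] p, i ∈ Pal U x := by
    filter_upwards [mem_nhdsWithin_of_mem_nhds (h.nhd p)] with x hx
    obtain ⟨j, hj⟩ := h.ne x
    have h4 := hp (hx hj)
    rw [mem_singleton_iff] at h4
    exact h.sub _ (h4 ▸ hj)
  rcases h.mx.partner_line hu h3 hpq (h.sub _ hi) with h4 | h4
  exacts [h1 h4, h2 h4]

/-- **facehub** -/
theorem facehub (h : Irr U T) (hz : DPt T z a b c d) (nd : [a, b, c, d].Nodup)
    (hi : i = a ∨ i = b) (hj : j = c ∨ j = d) (hpz : dist p z = 1) (hpv : dist p v = 1)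
    (hne : v ≠ z) (hne2 : v + z ≠ 2 * p) (ht : T p ⊆ {t, i, j}) : t ∉ T v := by
  simp only [List.nodup_cons, List.mem_cons, List.not_mem_nil, or_false, not_or, List.nodup_nil,
    and_true, not_false_eq_true] at nd
  obtain ⟨⟨ab, ac, ad⟩, ⟨bc, bd⟩, cd⟩ := nd
  have hsub : ({i, j} : Set (Fin 6)) ⊆ T z := by
    rw [hz.pal]
    rintro x (rfl | rfl)
    · rcases hi with rfl | rfl <;> simp
    · rcases hj with rfl | rfl <;> simp
  have F : Fc T z ({i, j} : Set (Fin 6)) := by
    refine ⟨hsub, fun w hw hws => DPt.face h hz hsub ?_ ?_ w hw hws⟩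
    · intro hs
      have h1 : a ∈ ({i, j} : Set (Fin 6)) := hs (by simp)
      have h2 : b ∈ ({i, j} : Set (Fin 6)) := hs (by simp)
      rcases h1 with h1 | h1 <;> rcases h2 with h2 | h2
      · exact ab (h1.trans h2.symm)
      · rcases hj with e | e
        · exact bc (h2.trans e)
        · exact bd (h2.trans e)
      · rcases hj with e | e
        · exact ac (h1.trans e)
        · exact ad (h1.trans e)
      · rcases hj with e | e
        · exact ac (h1.trans e)
        · exact ad (h1.trans e)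
    · intro hs
      have h1 : c ∈ ({i, j} : Set (Fin 6)) := hs (by simp)
      have h2 : d ∈ ({i, j} : Set (Fin 6)) := hs (by simp)
      rcases h1 with h1 | h1
      · rcases hi with e | e
        · exact ac (h1.trans e).symm
        · exact bc (h1.trans e).symm
      · rcases h2 with h2 | h2
        · rcases hi with e | e
          · exact ad (h2.trans e).symm
          · exact bd (h2.trans e).symm
        · exact cd (h1.trans h2.symm)
  exact face h F hpz hpv hne hne2 ht

/-- **insub**, **inside** -/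
theorem insub (H : WT U T) (hu : DPt T u a b c d) (hp : dist p u = 1) (hs : T p ⊆ T u) :
    T p = {a, b} ∨ T p = {c, d} := H.inside hu hp hs

/-- **insub**: no colours of both pairs -/
theorem insub_mixed (H : WT U T) (hu : DPt T u a b c d) (nd : [a, b, c, d].Nodup)
    (hp : dist p u = 1) (hs : T p ⊆ T u) (hi : i = a ∨ i = b) (hj : j = c ∨ j = d)
    (hip : i ∈ T p) (hjp : j ∈ T p) : False := by
  simp only [List.nodup_cons, List.mem_cons, List.not_mem_nil, or_false, not_or, List.nodup_nil,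
    and_true, not_false_eq_true] at nd
  obtain ⟨⟨ab, ac, ad⟩, ⟨bc, bd⟩, cd⟩ := nd
  rcases insub H hu hp hs with e | e
  · rw [e] at hjp
    rcases hjp with h1 | h1
    · rcases hj with rfl | rfl
      exacts [ac h1.symm, ad h1.symm]
    · rw [mem_singleton_iff] at h1
      rcases hj with rfl | rfl
      exacts [bc h1.symm, bd h1.symm]
  · rw [e] at hip
    rcases hip with h1 | h1
    · rcases hi with rfl | rfl
      exacts [ac h1, bc h1]
    · rw [mem_singleton_iff] at h1
      rcases hi with rfl | rfl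
      exacts [ad h1, bd h1]

/-- **insub**: with one colour of the first pair the other one too -/
theorem insub_pair (H : WT U T) (hu : DPt T u a b c d) (nd : [a, b, c, d].Nodup)
    (hp : dist p u = 1) (hs : T p ⊆ T u) : (a ∈ T p ↔ b ∈ T p) ∧ (c ∈ T p ↔ d ∈ T p) := by
  simp only [List.nodup_cons, List.mem_cons, List.not_mem_nil, or_false, not_or, List.nodup_nil,
    and_true, not_false_eq_true] at nd
  obtain ⟨⟨ab, ac, ad⟩, ⟨bc, bd⟩, cd⟩ := nd
  rcases insub H hu hp hs with e | e
  · rw [e]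
    simp [Ne.symm ac, Ne.symm ad, Ne.symm bc, Ne.symm bd]
  · rw [e]
    simp [ac, ad, bc, bd]

/-- **two**: two points with at least four colours at distance one have at most two common colours -/
theorem two (H : WT U T) (hd : dist p q = 1) (hp : 4 ≤ (T p).ncard) (hq : 4 ≤ (T q).ncard)
    (hij : i ≠ j) (him : i ≠ m) (hjm : j ≠ m) (hi : i ∈ T p) (hj : j ∈ T p) (hm : m ∈ T p)
    (hi' : i ∈ T q) (hj' : j ∈ T q) (hm' : m ∈ T q) : False := by
  have h1 := H.le4 hp (by rw [dist_comm]; exact hd)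
  have h2 := H.le4 hq hd
  exact H.no_three hd (by omega) (by omega) hij him hjm ⟨hi, hi'⟩ ⟨hj, hj'⟩ ⟨hm, hm'⟩

/-- four different colours -/
theorem four_le {S : Set (Fin 6)} (nd : [i, j, m, t].Nodup) (hi : i ∈ S) (hj : j ∈ S)
    (hm : m ∈ S) (ht : t ∈ S) : 4 ≤ S.ncard := by
  have h1 := card_four nd
  rw [← h1]
  refine Set.ncard_le_ncard ?_ (Set.toFinite _)
  rintro x (rfl | rfl | rfl | hx)
  · exact hi
  · exact hj
  · exact hm
  · rw [mem_singleton_iff] at hx; rw [hx]; exact ht

/-! ## The points of the rings -/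

section rings

variable {r : ℝ}

theorem pt_tr (z y : ℂ) (r : ℝ) : pt y r = y + pt z r - z := by
  unfold pt; ring

theorem dist_partner (z y : ℂ) (r : ℝ) : dist (pt z r) (pt y r) = dist z y := by
  rw [pt_tr z y r, dist_eq_norm, dist_eq_norm]
  congr 1
  ring

theorem dist_partner_one (hyz : dist y z = 1) (r : ℝ) : dist (pt z r) (pt y r) = 1 := by
  rw [dist_partner, dist_comm]; exact hyz

theorem dist_prev (z : ℂ) (r : ℝ) : dist (pt z r) (pt z (r - 1)) = 1 := by
  have h1 := dist_pt_one z (r - 1)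
  rw [show r - 1 + 1 = r by ring] at h1
  rw [dist_comm]; exact h1

/-- `s` is a neighbour of `r` on the circle -/
def Nx (r s : ℝ) : Prop := s = r + 1 ∨ s = r - 1

theorem Nx.dist {r s : ℝ} (h : Nx r s) (z : ℂ) : Dist.dist (pt z r) (pt z s) = 1 := by
  rcases h with rfl | rfl
  exacts [dist_pt_one z r, dist_prev z r]

/-- the centre and a neighbour -/
theorem Nx.off {r s : ℝ} (h : Nx r s) (z : ℂ) : z ≠ pt z s ∧ z + pt z s ≠ 2 * pt z r :=
  tri (dist_pt z r) (dist_pt z s)

/-- the two neighbours -/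
theorem Nx.two {r s s' : ℝ} (h : Nx r s) (h' : Nx r s') (hss : s ≠ s') (z : ℂ) :
    pt z s ≠ pt z s' ∧ pt z s + pt z s' ≠ 2 * pt z r := by
  have h1 := pt_off z (r - 1)
  rw [show r - 1 + 2 = r + 1 by ring, show r - 1 + 1 = r by ring] at h1
  rcases h with rfl | rfl <;> rcases h' with rfl | rfl
  · exact absurd rfl hss
  · exact h1
  · exact ⟨Ne.symm h1.1, by rw [add_comm]; exact h1.2⟩
  · exact absurd rfl hss

/-- the centre and the partner -/
theorem off_partner {z y : ℂ} {r : ℝ} (h0 : pt z r ≠ y) (h3 : pt z (r + 3) ≠ y) :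
    z ≠ pt y r ∧ z + pt y r ≠ 2 * pt z r := by
  constructor
  · intro h1
    refine h3 ?_
    rw [pt_three]
    rw [pt_tr z y] at h1
    linear_combination h1
  · intro h1
    refine h0 ?_
    rw [pt_tr z y] at h1
    linear_combination -h1

/-- a neighbour and the partner; `s' = r + 2` for `s = r + 1`, `s' = r - 2` for `s = r - 1` -/
theorem off_nx_partner {s : ℝ} (hn : Nx r s) (h2 : pt z (r + 2 * (s - r)) ≠ y)
    (h5 : pt z (r + 2 * (s - r) + 3) ≠ y) : pt z s ≠ pt y r ∧ pt z s + pt y r ≠ 2 * pt z r := by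
  have e : pt z r + pt z (r + 2 * (s - r)) = pt z s + z := by
    rcases hn with rfl | rfl
    · have h1 := pt_sum z r
      rw [show r + 2 * (r + 1 - r) = r + 2 by ring]
      exact h1
    · have h1 := pt_sum z (r - 2)
      rw [show r + 2 * (r - 1 - r) = r - 2 by ring, add_comm]
      rw [show r - 2 + 2 = r by ring, show r - 2 + 1 = r - 1 by ring] at h1
      exact h1
  constructor
  · intro h1
    refine h2 ?_
    rw [pt_tr z y] at h1
    linear_combination e + h1
  · intro h1
    refine h5 ?_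
    rw [pt_three]
    rw [pt_tr z y] at h1
    linear_combination -e - h1

/-! ### one ring -/

/-- **single** on a ring -/
theorem ring_single (h : Irr U T) {s : ℝ} (hs : Nx r s) (hp : T (pt z r) ⊆ {i}) :
    i ∉ T (pt z s) := single h (hs.dist z) hp

/-- **notsub** on a ring -/
theorem ring_notsub (h : Irr U T) {s : ℝ} (hs : Nx r s) (h3 : (T (pt z s)).ncard ≤ 3)
    (hp : T (pt z r) ⊆ T (pt z s)) : False := notsub h (hs.dist z) h3 hp

/-- **face**, `u` = neighbour, `v` = centre -/
theorem ring_face_centre (h : Irr U T) {s : ℝ} (hs : Nx r s) (h3 : (T (pt z s)).ncard ≤ 3)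
    (ht : T (pt z r) ⊆ insert t (T (pt z s))) : t ∉ T z :=
  face3 h h3 (hs.dist z) (dist_pt z r) (hs.off z).1 (hs.off z).2 ht

/-- **face**, `u`, `v` = the two neighbours -/
theorem ring_face_two (h : Irr U T) {s s' : ℝ} (hs : Nx r s) (hs' : Nx r s') (hss : s ≠ s')
    (h3 : (T (pt z s)).ncard ≤ 3) (ht : T (pt z r) ⊆ insert t (T (pt z s))) : t ∉ T (pt z s') :=
  face3 h h3 (hs.dist z) (hs'.dist z) (hs'.two hs hss.symm z).1 (hs'.two hs hss.symm z).2 ht

/-- **facehub**, `u` = centre, `v` = neighbour -/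
theorem ring_facehub (h : Irr U T) (hz : DPt T z a b c d) (nd : [a, b, c, d].Nodup)
    (hi : i = a ∨ i = b) (hj : j = c ∨ j = d) {s : ℝ} (hs : Nx r s)
    (ht : T (pt z r) ⊆ {t, i, j}) : t ∉ T (pt z s) :=
  facehub h hz nd hi hj (dist_pt z r) (hs.dist z) (hs.off z).1.symm
    (by rw [add_comm]; exact (hs.off z).2) ht

/-! ### two rings, `y` at distance one from `z` -/

variable (hyz : dist y z = 1)
include hyz

/-- **single** -/
theorem cross_single (h : Irr U T) (hp : T (pt z r) ⊆ {i}) : i ∉ T (pt y r) :=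
  single h (dist_partner_one hyz r) hp

/-- **notsub** -/
theorem cross_notsub (h : Irr U T) (h3 : (T (pt y r)).ncard ≤ 3)
    (hp : T (pt z r) ⊆ T (pt y r)) : False := notsub h (dist_partner_one hyz r) h3 hp

/-- **face**, `u` = partner, `v` = centre -/
theorem cross_face_centre (h : Irr U T) (h0 : pt z r ≠ y) (h03 : pt z (r + 3) ≠ y)
    (h3 : (T (pt y r)).ncard ≤ 3) (ht : T (pt z r) ⊆ insert t (T (pt y r))) : t ∉ T z :=
  face3 h h3 (dist_partner_one hyz r) (dist_pt z r) (off_partner h0 h03).1 (off_partner h0 h03).2 ht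

/-- **facehub**, `u` = centre, `v` = partner -/
theorem cross_facehub (h : Irr U T) (hz : DPt T z a b c d) (nd : [a, b, c, d].Nodup)
    (hi : i = a ∨ i = b) (hj : j = c ∨ j = d) (h0 : pt z r ≠ y) (h03 : pt z (r + 3) ≠ y)
    (ht : T (pt z r) ⊆ {t, i, j}) : t ∉ T (pt y r) :=
  facehub h hz nd hi hj (dist_pt z r) (dist_partner_one hyz r) (off_partner h0 h03).1.symm
    (by rw [add_comm]; exact (off_partner h0 h03).2) ht

/-- **face**, `u` = partner, `v` = neighbour -/
theorem cross_face_nx (h : Irr U T) {s : ℝ} (hs : Nx r s) (h2 : pt z (r + 2 * (s - r)) ≠ y)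
    (h5 : pt z (r + 2 * (s - r) + 3) ≠ y) (h3 : (T (pt y r)).ncard ≤ 3)
    (ht : T (pt z r) ⊆ insert t (T (pt y r))) : t ∉ T (pt z s) :=
  face3 h h3 (dist_partner_one hyz r) (hs.dist z) (off_nx_partner hs h2 h5).1
    (off_nx_partner hs h2 h5).2 ht

/-- **face**, `u` = neighbour, `v` = partner -/
theorem cross_face_partner (h : Irr U T) {s : ℝ} (hs : Nx r s) (h2 : pt z (r + 2 * (s - r)) ≠ y)
    (h5 : pt z (r + 2 * (s - r) + 3) ≠ y) (h3 : (T (pt z s)).ncard ≤ 3)
    (ht : T (pt z r) ⊆ insert t (T (pt z s))) : t ∉ T (pt y r) :=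
  face3 h h3 (hs.dist z) (dist_partner_one hyz r) (off_nx_partner hs h2 h5).1.symm
    (by rw [add_comm]; exact (off_nx_partner hs h2 h5).2) ht

/-- **insub**, `u` = partner, a two-pair point -/
theorem cross_insub (H : WT U T) (hu : DPt T (pt y r) a b c d) (hs : T (pt z r) ⊆ T (pt y r)) :
    T (pt z r) = {a, b} ∨ T (pt z r) = {c, d} := insub H hu (dist_partner_one hyz r) hs

/-- **two** -/
theorem cross_two (H : WT U T) (hp : 4 ≤ (T (pt z r)).ncard) (hq : 4 ≤ (T (pt y r)).ncard)
    (hij : i ≠ j) (him : i ≠ m) (hjm : j ≠ m) (hi : i ∈ T (pt z r)) (hj : j ∈ T (pt z r))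
    (hm : m ∈ T (pt z r)) (hi' : i ∈ T (pt y r)) (hj' : j ∈ T (pt y r)) (hm' : m ∈ T (pt y r)) :
    False := two H (dist_partner_one hyz r) hp hq hij him hjm hi hj hm hi' hj' hm'

end rings

end Vale.Agent.P032.R2.H492
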