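import Vale.Agent.P032.R2.H492.Fields2
import Vale.Agent.P032.R2.H609.Types

/-!
# P032: the fields `nodir tpY sameY` of `H741/TpF.lean` (rings with letters only)

`YW G S U T c x u s`: what is known about the ring `s` with letters only: it belongs to an end contact of
the hub `G.yr s`.
-/

set_option autoImplicit false

open Set Filter Topology Metric

noncomputable section

namespace Vale.Agent.P032.R2.H492

open Vale.Agent.P032.Six Vale.Agent.P032.Words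
open Vale.Agent.P032.S5.H767 (Ex)
open Vale.Agent.P032.R2.H741.Tp (RD Sem lc)
open Vale.Agent.P032.S5.H767 (pt dist_pt dist_pt_one pt_three pt_sum pt_six)

/-- a ring with letters only; `p = 1`: it types the arcs of the second pair of the hub -/
structure YW (G : RD) (S : Sem) (U : Fin 6 → Set ℂ) (T : ℂ → Set (Fin 6)) (c : ℕ → ℂ)
    (x : ℕ → Fin 6) (u : ℝ) (s : ℕ) : Prop where
  wt : WT U T
  hr : G.yr s < G.R
  hp : G.yp s < 2
  ct : EndCt T (c (G.yr s)) (c s) (x (G.sg (G.yr s) (2 - 2 * G.yp s)))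
    (x (G.sg (G.yr s) (3 - 2 * G.yp s))) (x (G.sg (G.yr s) (2 * G.yp s)))
    (x (G.sg (G.yr s) (2 * G.yp s + 1))) (x (G.sg (G.yr s) 4)) (x (G.sg (G.yr s) 5))
  s0 : G.sg s 0 = G.sg (G.yr s) (2 - 2 * G.yp s)
  s1 : G.sg s 1 = G.sg (G.yr s) 4
  s2 : G.sg s 2 = G.sg (G.yr s) (3 - 2 * G.yp s)
  s3 : G.sg s 3 = G.sg (G.yr s) 5
  sgl : ∀ j < 6, G.sg (G.yr s) j < 6
  sgy : ∀ j < 6, G.sg s j < 6
  /-- the palettes on the ring of the hub -/
  hC : ∀ k < 6, ∀ i < 6, (S.C (G.yr s) k i ↔ x i ∈ T (pt (c (G.yr s)) (u + (k : ℝ))))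
  /-- the letters of the hub are limits of exact arcs -/
  hX : ∀ t < 2, ∀ k < 6, S.X t (G.yr s) k (2 + G.yp s) → pt (c (G.yr s)) (u + (k : ℝ)) ∈
    closure (Ex T (c (G.yr s)) {x (G.sg (G.yr s) (2 * G.yp s)), x (G.sg (G.yr s) (2 * G.yp s + 1))})
  /-- the colours of the letters of the ring -/
  hY : ∀ t < 2, ∀ k < 6, ∀ l < 4, ∀ i ∈ lc G s l, S.X t s k l → x i ∈ T (pt (c s) (u + (k : ℝ)))
  /-- the anchor -/
  anc : G.ya s = true → S.F 0 → pt (c (G.yr s)) u = c s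

variable {G : RD} {S : Sem} {U : Fin 6 → Set ℂ} {T : ℂ → Set (Fin 6)} {c : ℕ → ℂ}
  {x : ℕ → Fin 6} {u : ℝ} {s : ℕ}

namespace YW

variable (W : YW G S U T c x u s)
include W

theorem ct4 : (T (c s)).ncard = 4 := by
  obtain ⟨⟨ab, ac, ad, ae, af⟩, ⟨bc, bd, be, bf⟩, ⟨cd, ce, cf⟩, ⟨de, df⟩, ef⟩ := nodup_sep W.ct.nd
  rw [W.ct.pal]
  exact card_four (by simp [ab, ae, af, be, bf, ef])

theorem not_all {k : ℕ} (h0 : x (G.sg s 0) ∈ T (pt (c s) (u + (k : ℝ))))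
    (h1 : x (G.sg s 1) ∈ T (pt (c s) (u + (k : ℝ)))) (h2 : x (G.sg s 2) ∈ T (pt (c s) (u + (k : ℝ))))
    (h3 : x (G.sg s 3) ∈ T (pt (c s) (u + (k : ℝ)))) : False := by
  have hs : T (c s) ⊆ T (pt (c s) (u + (k : ℝ))) := by
    rw [W.ct.pal]
    rintro i (rfl | rfl | rfl | hi)
    · rw [← W.s0]; exact h0
    · rw [← W.s2]; exact h2
    · rw [← W.s1]; exact h1
    · rw [mem_singleton_iff] at hi; rw [hi, ← W.s3]; exact h3
  have h4 := W.ct4
  have h5 := Set.ncard_le_ncard hs (Set.toFinite _)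
  have h6 := W.wt.two (x := c s) (y := pt (c s) (u + (k : ℝ))) (dist_pt _ _) (by omega) h4.ge
  rw [inter_eq_right.2 hs] at h6
  omega

theorem nodir : ∀ k < 6, ¬ (S.X 0 s k 2 ∧ S.X 1 s k 3) ∧ ¬ (S.X 0 s k 3 ∧ S.X 1 s k 2) := by
  intro k hk
  have m0 : G.sg s 0 ∈ lc G s 2 := by simp [lc]
  have m1 : G.sg s 1 ∈ lc G s 2 := by simp [lc]
  have m2 : G.sg s 2 ∈ lc G s 3 := by simp [lc]
  have m3 : G.sg s 3 ∈ lc G s 3 := by simp [lc]
  constructor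
  · rintro ⟨h1, h2⟩
    exact W.not_all (W.hY 0 (by norm_num) k hk 2 (by norm_num) _ m0 h1)
      (W.hY 0 (by norm_num) k hk 2 (by norm_num) _ m1 h1)
      (W.hY 1 (by norm_num) k hk 3 (by norm_num) _ m2 h2)
      (W.hY 1 (by norm_num) k hk 3 (by norm_num) _ m3 h2)
  · rintro ⟨h1, h2⟩
    exact W.not_all (W.hY 1 (by norm_num) k hk 2 (by norm_num) _ m0 h2)
      (W.hY 1 (by norm_num) k hk 2 (by norm_num) _ m1 h2)
      (W.hY 0 (by norm_num) k hk 3 (by norm_num) _ m2 h1)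
      (W.hY 0 (by norm_num) k hk 3 (by norm_num) _ m3 h1)

theorem tpY : ∀ t < 2, ∀ k < 6, ∀ m, 2 ≤ m → m < 4 → S.X t (G.yr s) k (2 + G.yp s) →
    S.X t s k m →
    (G.sg (G.yr s) 4 ∈ lc G s m → S.C (G.yr s) k (G.sg (G.yr s) 4) →
      S.C (G.yr s) k (G.sg (G.yr s) 5)) ∧
    (G.sg (G.yr s) 5 ∈ lc G s m → S.C (G.yr s) k (G.sg (G.yr s) 5) →
      S.C (G.yr s) k (G.sg (G.yr s) 4)) := by
  intro t ht k hk m hm hm4 hX hY
  obtain ⟨⟨ab, ac, ad, ae, af⟩, ⟨bc, bd, be, bf⟩, ⟨cd, ce, cf⟩, ⟨de, df⟩, ef⟩ := nodup_sep W.ct.nd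
  have hq := W.hX t ht k hk hX
  rw [W.hC k hk _ (W.sgl 4 (by norm_num)), W.hC k hk _ (W.sgl 5 (by norm_num))]
  have e1 : pt (c s) (u + (k : ℝ)) = c s + pt (c (G.yr s)) (u + (k : ℝ)) - c (G.yr s) :=
    pt_tr _ _ _
  have m0 : G.sg s 0 ∈ lc G s 2 := by simp [lc]
  have m1 : G.sg s 1 ∈ lc G s 2 := by simp [lc]
  have m2 : G.sg s 2 ∈ lc G s 3 := by simp [lc]
  have m3 : G.sg s 3 ∈ lc G s 3 := by simp [lc]
  have : m = 2 ∨ m = 3 := by omega
  rcases this with rfl | rfl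
  · have h0 := W.hY t ht k hk 2 (by norm_num) _ m0 hY
    have h1 := W.hY t ht k hk 2 (by norm_num) _ m1 hY
    rw [e1, W.s0] at h0
    rw [e1, W.s1] at h1
    refine ⟨fun _ he => W.ct.tpend_F W.wt hq ⟨h0, h1⟩ he, fun h5 => ?_⟩
    have h6 : G.sg (G.yr s) 5 = G.sg s 0 ∨ G.sg (G.yr s) 5 = G.sg s 1 := by
      simpa [lc] using h5
    rcases h6 with h6 | h6
    · exact absurd (congrArg x (h6.trans W.s0)).symm af
    · exact absurd (congrArg x (h6.trans W.s1)).symm ef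
  · have h0 := W.hY t ht k hk 3 (by norm_num) _ m2 hY
    have h1 := W.hY t ht k hk 3 (by norm_num) _ m3 hY
    rw [e1, W.s2] at h0
    rw [e1, W.s3] at h1
    refine ⟨fun h5 => ?_, fun _ hf => W.ct.tpend_E W.wt hq ⟨h0, h1⟩ hf⟩
    have h6 : G.sg (G.yr s) 4 = G.sg s 2 ∨ G.sg (G.yr s) 4 = G.sg s 3 := by
      simpa [lc] using h5
    rcases h6 with h6 | h6
    · exact absurd (congrArg x (h6.trans W.s2)).symm be
    · exact absurd (congrArg x (h6.trans W.s3)) ef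

theorem sameY : G.ya s = true → S.F 0 → ∀ t < 2,
    (∀ l < 4, ∀ i ∈ lc G s l, (S.X t s 2 l → S.C (G.yr s) 1 i) ∧
      (S.X t s 4 l → S.C (G.yr s) 5 i)) ∧ ¬ S.X t s 3 2 ∧ ¬ S.X t s 3 3 := by
  intro ha hF t ht
  obtain ⟨⟨ab, ac, ad, ae, af⟩, ⟨bc, bd, be, bf⟩, ⟨cd, ce, cf⟩, ⟨de, df⟩, ef⟩ := nodup_sep W.ct.nd
  have h0 := W.anc ha hF
  have tr := fun v : ℝ => pt_tr (c (G.yr s)) (c s) v
  have p2 : pt (c s) (u + ((2 : ℕ) : ℝ)) = pt (c (G.yr s)) (u + ((1 : ℕ) : ℝ)) := by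
    have h1 := pt_sum (c (G.yr s)) u
    rw [tr]
    push_cast
    rw [h0] at h1
    linear_combination h1
  have p4 : pt (c s) (u + ((4 : ℕ) : ℝ)) = pt (c (G.yr s)) (u + ((5 : ℕ) : ℝ)) := by
    have h1 := pt_sum (c (G.yr s)) (u + 4)
    rw [tr]
    push_cast
    rw [show u + 4 + 2 = u + 6 by ring, pt_six, h0, show u + 4 + 1 = u + 5 by ring] at h1
    linear_combination h1
  have p3 : pt (c s) (u + ((3 : ℕ) : ℝ)) = c (G.yr s) := by
    push_cast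
    rw [pt_three, tr, h0]
    ring
  have hi6 : ∀ l < 4, ∀ i ∈ lc G s l, i < 6 := by
    intro l hl i hi
    have : l = 0 ∨ l = 1 ∨ l = 2 ∨ l = 3 := by omega
    rcases this with rfl | rfl | rfl | rfl
    · have h6 : i = G.sg s 4 := by simpa [lc] using hi
      rw [h6]; exact W.sgy 4 (by norm_num)
    · have h6 : i = G.sg s 5 := by simpa [lc] using hi
      rw [h6]; exact W.sgy 5 (by norm_num)
    · have h6 : i = G.sg s 0 ∨ i = G.sg s 1 := by simpa [lc] using hi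
      rcases h6 with h6 | h6 <;> rw [h6]
      exacts [W.sgy 0 (by norm_num), W.sgy 1 (by norm_num)]
    · have h6 : i = G.sg s 2 ∨ i = G.sg s 3 := by simpa [lc] using hi
      rcases h6 with h6 | h6 <;> rw [h6]
      exacts [W.sgy 2 (by norm_num), W.sgy 3 (by norm_num)]
  refine ⟨fun l hl i hi => ⟨fun h => ?_, fun h => ?_⟩, fun h => ?_, fun h => ?_⟩
  · rw [W.hC 1 (by norm_num) i (hi6 l hl i hi), ← p2]
    exact W.hY t ht 2 (by norm_num) l hl i hi h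
  · rw [W.hC 5 (by norm_num) i (hi6 l hl i hi), ← p4]
    exact W.hY t ht 4 (by norm_num) l hl i hi h
  · have h1 := W.hY t ht 3 (by norm_num) 2 (by norm_num) (G.sg s 1) (by simp [lc]) h
    rw [p3, W.s1, W.ct.hz.pal] at h1
    simp [Ne.symm ae, Ne.symm be, Ne.symm ce, Ne.symm de] at h1
  · have h1 := W.hY t ht 3 (by norm_num) 3 (by norm_num) (G.sg s 3) (by simp [lc]) h
    rw [p3, W.s3, W.ct.hz.pal] at h1
    simp [Ne.symm af, Ne.symm bf, Ne.symm cf, Ne.symm df] at h1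

end YW

end Vale.Agent.P032.R2.H492
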