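import Vale.Agent.P032.R2.H492.Face
import Vale.Agent.P032.R2.H264.Same
import Vale.Agent.P032.R2.H741.TpF

/-!
# P032: the fields `single` ... `two`, `inside`, `le4`, `q4i`, `q4ge` of `H741/TpF.lean`

`PW G S U T c x u`: the part of the world which these fields need.  The point `(r, k)` is
`pt (c r) (u + k)`, the colour number `i` is `x i`.
-/

set_option autoImplicit false

open Set Filter Topology Metric

noncomputable section

namespace Vale.Agent.P032.R2.H492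

open Vale.Agent.P032.Six Vale.Agent.P032.Words
open Vale.Agent.P032.R2.H741.Tp (RD Sem Off prt pc)
open Vale.Agent.P032.S5.H767 (pt dist_pt dist_pt_one pt_three pt_sum pt_six pt_off tri
  pt_add_nat_mod)

/-- the palettes of the rings in a world -/
structure PW (G : RD) (S : Sem) (U : Fin 6 → Set ℂ) (T : ℂ → Set (Fin 6)) (c : ℕ → ℂ)
    (x : ℕ → Fin 6) (u : ℝ) : Prop where
  wt : WT U T
  cen : ∀ r < G.R, DPt T (c r) (x (G.sg r 0)) (x (G.sg r 1)) (x (G.sg r 2)) (x (G.sg r 3))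
  sgl : ∀ r < G.R, ∀ j < 6, G.sg r j < 6
  sgi : ∀ r < G.R, ∀ i < 6, ∀ j < 6, G.sg r i = G.sg r j → i = j
  xi : ∀ i < 6, ∀ j < 6, x i = x j → i = j
  adj : ∀ r < G.R, ∀ s < G.R, G.adj r s = true → dist (c r) (c s) = 1
  hC : ∀ r < G.R, ∀ k < 6, ∀ i < 6, (S.C r k i ↔ x i ∈ T (pt (c r) (u + (k : ℝ))))
  hQ : ∀ r < G.R, ∀ k < 6, (S.Q r k ↔ 4 ≤ (T (pt (c r) (u + (k : ℝ)))).ncard)
  hD : ∀ r < G.R, ∀ k < 6, ∀ w < 16, (S.D r k w → DPt T (pt (c r) (u + (k : ℝ))) (x (pc G r w 0))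
    (x (pc G r w 1)) (x (pc G r w 2)) (x (pc G r w 3)))
  hct : ∀ r < G.R, ∀ s < G.R, ∀ k < 6, (S.ct r s k ↔ pt (c r) (u + (k : ℝ)) = c s)

variable {G : RD} {S : Sem} {U : Fin 6 → Set ℂ} {T : ℂ → Set (Fin 6)} {c : ℕ → ℂ}
  {x : ℕ → Fin 6} {u : ℝ}

/-- every colour has a number -/
theorem exists_num (xi : ∀ i < 6, ∀ j < 6, x i = x j → i = j) (y : Fin 6) :
    ∃ i < 6, x i = y := by
  have hf : Function.Injective (fun i : Fin 6 => x i.val) := fun i j h =>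
    Fin.ext (xi i.val i.2 j.val j.2 h)
  obtain ⟨i, hi⟩ := (Finite.injective_iff_surjective.1 hf) y
  exact ⟨i.val, i.2, hi⟩

namespace PW

variable (W : PW G S U T c x u)
include W

/-- points with the same colours -/
theorem sub {A B : Set (Fin 6)} (h : ∀ i < 6, x i ∈ A → x i ∈ B) : A ⊆ B := fun y hy => by
  obtain ⟨i, hi, rfl⟩ := exists_num W.xi y
  exact h i hi hy

theorem card3 {A : Set (Fin 6)} {B : Finset ℕ} (hB : B.card ≤ 3) (h : ∀ i < 6, x i ∈ A → i ∈ B) :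
    A.ncard ≤ 3 := by
  have h1 : A ⊆ x '' (B : Set ℕ) := fun y hy => by
    obtain ⟨i, hi, rfl⟩ := exists_num W.xi y
    exact ⟨i, h i hi hy, rfl⟩
  have h2 : (x '' (B : Set ℕ)).ncard ≤ (B : Set ℕ).ncard := Set.ncard_image_le B.finite_toSet
  rw [Set.ncard_coe_finset] at h2
  exact (Set.ncard_le_ncard h1 (Set.toFinite _)).trans (h2.trans hB)

omit W in
theorem mod6 (k : ℕ) : k % 6 < 6 := Nat.mod_lt _ (by norm_num)

omit W in
/-- the neighbour -/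
theorem nx (z : ℂ) (u : ℝ) (k : ℕ) {s : ℕ} (hs : s = 1 ∨ s = 5) :
    ∃ v : ℝ, Nx (u + (k : ℝ)) v ∧ pt z (u + (((k + s) % 6 : ℕ) : ℝ)) = pt z v ∧
      pt z (u + (((k + 2 * s) % 6 : ℕ) : ℝ)) = pt z (u + (k : ℝ) + 2 * (v - (u + (k : ℝ)))) ∧
      pt z (u + (((k + 2 * s + 3) % 6 : ℕ) : ℝ)) =
        pt z (u + (k : ℝ) + 2 * (v - (u + (k : ℝ))) + 3) := by
  rcases hs with rfl | rfl
  · refine ⟨u + k + 1, Or.inl rfl, ?_, ?_, ?_⟩
    · rw [pt_add_nat_mod]; congr 1; push_cast; ring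
    · rw [pt_add_nat_mod]; congr 1; push_cast; ring
    · rw [pt_add_nat_mod]; congr 1; push_cast; ring
  · refine ⟨u + k - 1, Or.inr rfl, ?_, ?_, ?_⟩
    · rw [pt_add_nat_mod, ← pt_six z (u + k - 1)]; congr 1; push_cast; ring
    · rw [pt_add_nat_mod, ← pt_six z (u + (k : ℝ) + 2 * (u + k - 1 - (u + k))),
        ← pt_six z (u + (k : ℝ) + 2 * (u + k - 1 - (u + k)) + 6)]
      congr 1; push_cast; ring
    · rw [pt_add_nat_mod, ← pt_six z (u + (k : ℝ) + 2 * (u + k - 1 - (u + k)) + 3),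
        ← pt_six z (u + (k : ℝ) + 2 * (u + k - 1 - (u + k)) + 3 + 6)]
      congr 1; push_cast; ring

omit W in
/-- the two neighbours -/
theorem nx2 (z : ℂ) (u : ℝ) (k : ℕ) {s : ℕ} (hs : s = 1 ∨ s = 5) :
    ∃ v v' : ℝ, Nx (u + (k : ℝ)) v ∧ Nx (u + (k : ℝ)) v' ∧ v ≠ v' ∧
      pt z (u + (((k + s) % 6 : ℕ) : ℝ)) = pt z v ∧
      pt z (u + (((k + 6 - s) % 6 : ℕ) : ℝ)) = pt z v' := by
  rcases hs with rfl | rfl
  · refine ⟨u + k + 1, u + k - 1, Or.inl rfl, Or.inr rfl, ?_, ?_, ?_⟩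
    · intro h; linarith
    · rw [pt_add_nat_mod]; congr 1; push_cast; ring
    · rw [pt_add_nat_mod, show k + 6 - 1 = k + 5 by omega, ← pt_six z (u + k - 1)]
      congr 1; push_cast; ring
  · refine ⟨u + k - 1, u + k + 1, Or.inr rfl, Or.inl rfl, ?_, ?_, ?_⟩
    · intro h; linarith
    · rw [pt_add_nat_mod, ← pt_six z (u + k - 1)]; congr 1; push_cast; ring
    · rw [pt_add_nat_mod, show k + 6 - 5 = k + 1 by omega]; congr 1; push_cast; ring

/-- centres at distance one -/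
theorem dcs {r s : ℕ} (hr : r < G.R) (hs : s < G.R) (h : (G.adj r s || G.adj s r) = true) :
    dist (c s) (c r) = 1 := by
  rw [Bool.or_eq_true] at h
  rcases h with h | h
  · rw [dist_comm]; exact W.adj r hr s hs h
  · exact W.adj s hs r hr h

/-- the exceptions -/
theorem off {r s : ℕ} (hr : r < G.R) (hs : s < G.R) (h : (G.adj r s || G.adj s r) = true)
    {j : ℕ} (ho : Off S r s j) :
    pt (c r) (u + (j : ℝ)) ≠ c s ∧ pt (c r) (u + (j : ℝ) + 3) ≠ c s := by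
  have hd := W.dcs hr hs h
  obtain ⟨h1, h2⟩ := ho
  rcases lt_trichotomy r s with hl | hl | hl
  · rw [min_eq_left hl.le, max_eq_right hl.le, W.hct r hr s hs _ (mod6 _), pt_add_nat_mod] at h1 h2
    refine ⟨h1, ?_⟩
    have e : u + (((j + 3 : ℕ)) : ℝ) = u + (j : ℝ) + 3 := by push_cast; ring
    rwa [e] at h2
  · subst hl
    rw [dist_self] at hd
    exact absurd hd.symm one_ne_zero
  · rw [min_eq_right hl.le, max_eq_left hl.le, W.hct s hs r hr _ (mod6 _), pt_add_nat_mod] at h1 h2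
    have e : u + (((j + 3 : ℕ)) : ℝ) = u + (j : ℝ) + 3 := by push_cast; ring
    rw [e] at h2
    constructor
    · intro h3
      refine h2 ?_
      rw [pt_three, pt_tr (c r) (c s), h3]; ring
    · intro h3
      refine h1 ?_
      rw [pt_three] at h3
      rw [pt_tr (c r) (c s)]
      linear_combination -h3

/-! ### fields of one ring -/

theorem single : ∀ r < G.R, ∀ k < 6, ∀ s, s = 1 ∨ s = 5 → ∀ i < 6,
    (∀ j < 6, S.C r k j → j = i) → ¬ S.C r ((k + s) % 6) i := by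
  intro r hr k hk s hs i hi h hc
  rw [W.hC r hr _ (mod6 _) i hi] at hc
  obtain ⟨v, hv, e, -, -⟩ := nx (c r) u k hs
  rw [e] at hc
  refine ring_single W.wt.irr hv ?_ hc
  refine W.sub fun j hj hx => ?_
  rw [mem_singleton_iff, h j hj ((W.hC r hr k hk j hj).2 hx)]

/-- the palette of the neighbour: at most three colours -/
theorem nx3 {r k : ℕ} (hr : r < G.R) {B : Finset ℕ} (hB : B.card ≤ 3)
    (h : ∀ i < 6, S.C r (k % 6) i → i ∈ B) : (T (pt (c r) (u + ((k % 6 : ℕ) : ℝ)))).ncard ≤ 3 :=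
  W.card3 hB fun i hi hx => h i hi ((W.hC r hr _ (mod6 _) i hi).2 hx)

/-- at most three colours -/
theorem at3 {r k : ℕ} (hr : r < G.R) (hk : k < 6) {B : Finset ℕ} (hB : B.card ≤ 3)
    (h : ∀ i < 6, S.C r k i → i ∈ B) : (T (pt (c r) (u + (k : ℝ)))).ncard ≤ 3 :=
  W.card3 hB fun i hi hx => h i hi ((W.hC r hr _ hk i hi).2 hx)

theorem notsub : ∀ r < G.R, ∀ k < 6, ∀ s, s = 1 ∨ s = 5 → ∀ B : Finset ℕ, B.card ≤ 3 →
    (∀ i < 6, S.C r ((k + s) % 6) i → i ∈ B) →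
    ∃ i < 6, S.C r k i ∧ ¬ S.C r ((k + s) % 6) i := by
  intro r hr k hk s hs B hB h
  by_contra hcon
  push Not at hcon
  obtain ⟨v, hv, e, -, -⟩ := nx (c r) u k hs
  have h3 := W.nx3 hr hB h
  rw [e] at h3
  refine ring_notsub W.wt.irr hv h3 (W.sub fun i hi hx => ?_)
  rw [← e]
  exact (W.hC r hr _ (mod6 _) i hi).1 (hcon i hi ((W.hC r hr k hk i hi).2 hx))

theorem faceA : ∀ r < G.R, ∀ k < 6, ∀ s, s = 1 ∨ s = 5 → ∀ B : Finset ℕ, B.card ≤ 3 →
    (∀ i < 6, S.C r ((k + s) % 6) i → i ∈ B) → ∀ j < 4,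
    ¬ ∀ i < 6, S.C r k i → i = G.sg r j ∨ S.C r ((k + s) % 6) i := by
  intro r hr k hk s hs B hB h j hj hcon
  obtain ⟨v, hv, e, -, -⟩ := nx (c r) u k hs
  have h3 := W.nx3 hr hB h
  rw [e] at h3
  refine ring_face_centre (t := x (G.sg r j)) W.wt.irr hv h3 (W.sub fun i hi hx => ?_) ?_
  · rw [← e]
    rcases hcon i hi ((W.hC r hr k hk i hi).2 hx) with h1 | h1
    · exact Or.inl (by rw [h1])
    · exact Or.inr ((W.hC r hr _ (mod6 _) i hi).1 h1)
  · rw [(W.cen r hr).pal]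
    have : j = 0 ∨ j = 1 ∨ j = 2 ∨ j = 3 := by omega
    rcases this with rfl | rfl | rfl | rfl <;> simp

theorem faceB : ∀ r < G.R, ∀ k < 6, ∀ s, s = 1 ∨ s = 5 → ∀ B : Finset ℕ, B.card ≤ 3 →
    (∀ i < 6, S.C r ((k + s) % 6) i → i ∈ B) → ∀ j < 6,
    (∀ i < 6, S.C r k i → i = j ∨ S.C r ((k + s) % 6) i) → ¬ S.C r ((k + 6 - s) % 6) j := by
  intro r hr k hk s hs B hB h j hj hcon hc
  obtain ⟨v, v', hv, hv', hvv, e, e'⟩ := nx2 (c r) u k hs
  have h3 := W.nx3 hr hB h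
  rw [e] at h3
  rw [W.hC r hr _ (mod6 _) j hj, e'] at hc
  refine ring_face_two (t := x j) W.wt.irr hv hv' hvv h3 (W.sub fun i hi hx => ?_) hc
  rw [← e]
  rcases hcon i hi ((W.hC r hr k hk i hi).2 hx) with h1 | h1
  · exact Or.inl (by rw [h1])
  · exact Or.inr ((W.hC r hr _ (mod6 _) i hi).1 h1)

omit W in
theorem pick2 {y : ℕ → Fin 6} {i : ℕ} (hi : i < 2) : y i = y 0 ∨ y i = y 1 := by
  have : i = 0 ∨ i = 1 := by omega
  rcases this with rfl | rfl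
  exacts [Or.inl rfl, Or.inr rfl]

omit W in
theorem pick4 {y : ℕ → Fin 6} {q : ℕ} (h2 : 2 ≤ q) (h4 : q < 4) : y q = y 2 ∨ y q = y 3 := by
  have : q = 2 ∨ q = 3 := by omega
  rcases this with rfl | rfl
  exacts [Or.inl rfl, Or.inr rfl]

omit W in
theorem dnodup {z : ℂ} {a b c d : Fin 6} (h : DPt T z a b c d) : [a, b, c, d].Nodup := by
  simp [h.ab, h.ac, h.ad, h.bc, h.bd, h.cd]

theorem hubA : ∀ r < G.R, ∀ k < 6, ∀ s, s = 1 ∨ s = 5 → ∀ i < 2, ∀ q, 2 ≤ q → q < 4 → ∀ j < 6,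
    (∀ m < 6, S.C r k m → m = G.sg r i ∨ m = G.sg r q ∨ m = j) → j ≠ G.sg r i → j ≠ G.sg r q →
    ¬ S.C r ((k + s) % 6) j := by
  intro r hr k hk s hs i hi q hq hq4 j hj h _ _ hc
  obtain ⟨v, hv, e, -, -⟩ := nx (c r) u k hs
  rw [W.hC r hr _ (mod6 _) j hj, e] at hc
  have hz := W.cen r hr
  refine ring_facehub (t := x j) W.wt.irr hz (dnodup hz) (i := x (G.sg r i)) (j := x (G.sg r q))
    (pick2 (y := fun n => x (G.sg r n)) hi) (pick4 (y := fun n => x (G.sg r n)) hq hq4) hv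
    (W.sub fun m hm hx => ?_) hc
  rcases h m hm ((W.hC r hr k hk m hm).2 hx) with h1 | h1 | h1 <;> rw [h1] <;> simp

omit W in
theorem prt_lt : ∀ w < 16, ∀ j < 4, prt w j < 6 := by decide

theorem insubA : ∀ r < G.R, ∀ k < 6, ∀ s, s = 1 ∨ s = 5 → ∀ w < 16, S.D r ((k + s) % 6) w →
    (∀ i < 6, S.C r k i → S.C r ((k + s) % 6) i) →
    (S.C r k (pc G r w 0) ↔ S.C r k (pc G r w 1)) ∧
    (S.C r k (pc G r w 2) ↔ S.C r k (pc G r w 3)) ∧
      ¬ (S.C r k (pc G r w 0) ∧ S.C r k (pc G r w 2)) := by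
  intro r hr k hk s hs w hw hD h
  have hu := W.hD r hr _ (mod6 _) w hw hD
  obtain ⟨v, hv, e, -, -⟩ := nx (c r) u k hs
  have hpc : ∀ j < 4, pc G r w j < 6 := fun j hj => W.sgl r hr _ (prt_lt w hw j hj)
  have hs' : T (pt (c r) (u + (k : ℝ))) ⊆ T (pt (c r) (u + (((k + s) % 6 : ℕ) : ℝ))) :=
    W.sub fun i hi hx =>
      (W.hC r hr _ (mod6 _) i hi).1 (h i hi ((W.hC r hr k hk i hi).2 hx))
  have hd : dist (pt (c r) (u + (k : ℝ))) (pt (c r) (u + (((k + s) % 6 : ℕ) : ℝ))) = 1 := by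
    rw [e]; exact hv.dist (c r)
  obtain ⟨h1, h2⟩ := insub_pair W.wt hu (dnodup hu) hd hs'
  rw [W.hC r hr k hk _ (hpc 0 (by norm_num)), W.hC r hr k hk _ (hpc 1 (by norm_num)),
    W.hC r hr k hk _ (hpc 2 (by norm_num)), W.hC r hr k hk _ (hpc 3 (by norm_num))]
  exact ⟨h1, h2, fun h3 => insub_mixed W.wt hu (dnodup hu) hd hs' (Or.inl rfl) (Or.inl rfl)
    h3.1 h3.2⟩

theorem inside : ∀ r < G.R, ∀ k < 6, ¬ S.C r k (G.sg r 4) → ¬ S.C r k (G.sg r 5) →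
    (S.C r k (G.sg r 0) ↔ S.C r k (G.sg r 1)) ∧ (S.C r k (G.sg r 2) ↔ S.C r k (G.sg r 3)) ∧
      ¬ (S.C r k (G.sg r 0) ∧ S.C r k (G.sg r 2)) := by
  intro r hr k hk h4 h5
  have hu := W.cen r hr
  have hs' : T (pt (c r) (u + (k : ℝ))) ⊆ T (c r) := by
    refine W.sub fun i hi hx => ?_
    have h6 : ∃ j < 6, G.sg r j = i := by
      have hf : Function.Injective
          (fun j : Fin 6 => (⟨G.sg r j.val, W.sgl r hr j.val j.2⟩ : Fin 6)) :=
        fun a b hab => Fin.ext (W.sgi r hr a.val a.2 b.val b.2 (congrArg Fin.val hab))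
      obtain ⟨j, hj⟩ := (Finite.injective_iff_surjective.1 hf) ⟨i, hi⟩
      exact ⟨j.val, j.2, congrArg Fin.val hj⟩
    obtain ⟨j, hj, rfl⟩ := h6
    rw [← W.hC r hr k hk _ hi] at hx
    rw [hu.pal]
    have : j = 0 ∨ j = 1 ∨ j = 2 ∨ j = 3 ∨ j = 4 ∨ j = 5 := by omega
    rcases this with rfl | rfl | rfl | rfl | rfl | rfl
    · simp
    · simp
    · simp
    · simp
    · exact absurd hx h4
    · exact absurd hx h5
  have hd : dist (pt (c r) (u + (k : ℝ))) (c r) = 1 := dist_pt _ _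
  obtain ⟨h1, h2⟩ := insub_pair W.wt hu (dnodup hu) hd hs'
  rw [W.hC r hr k hk _ (W.sgl r hr 0 (by norm_num)), W.hC r hr k hk _ (W.sgl r hr 1 (by norm_num)),
    W.hC r hr k hk _ (W.sgl r hr 2 (by norm_num)), W.hC r hr k hk _ (W.sgl r hr 3 (by norm_num))]
  exact ⟨h1, h2, fun h3 => insub_mixed W.wt hu (dnodup hu) hd hs' (Or.inl rfl) (Or.inl rfl)
    h3.1 h3.2⟩

/-- the number of colours of a point: a set of numbers -/
theorem ncard_num (A : Set (Fin 6)) : A.ncard = {i : ℕ | i < 6 ∧ x i ∈ A}.ncard := by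
  have h1 : A = x '' {i : ℕ | i < 6 ∧ x i ∈ A} := by
    ext y
    constructor
    · intro hy
      obtain ⟨i, hi, rfl⟩ := exists_num W.xi y
      exact ⟨i, ⟨hi, hy⟩, rfl⟩
    · rintro ⟨i, ⟨-, hi⟩, rfl⟩
      exact hi
  conv_lhs => rw [h1]
  exact Set.InjOn.ncard_image fun i hi j hj h => W.xi i hi.1 j hj.1 h

theorem le4 : ∀ r < G.R, ∀ k < 6, ∀ j < 6, ∃ i < 6, i ≠ j ∧ ¬ S.C r k i := by
  intro r hr k hk j hj
  by_contra hcon
  push Not at hcon
  have hz := W.cen r hr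
  have h4 : (T (c r)).ncard = 4 := by rw [hz.pal]; exact card_four (dnodup hz)
  have h5 : (T (pt (c r) (u + (k : ℝ)))).ncard ≤ 4 := W.wt.le4 h4.ge (dist_pt _ _)
  rw [W.ncard_num] at h5
  have h6 : ((Finset.range 6).erase j : Set ℕ) ⊆ {i : ℕ | i < 6 ∧ x i ∈ T (pt (c r) (u + (k : ℝ)))} := by
    intro i hi
    rw [Finset.mem_coe, Finset.mem_erase, Finset.mem_range] at hi
    exact ⟨hi.2, (W.hC r hr k hk i hi.2).1 (hcon i hi.2 hi.1)⟩
  have hfin : {i : ℕ | i < 6 ∧ x i ∈ T (pt (c r) (u + (k : ℝ)))}.Finite :=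
    (Set.finite_lt_nat 6).subset fun i hi => hi.1
  have h7 := Set.ncard_le_ncard h6 hfin
  rw [Set.ncard_coe_finset, Finset.card_erase_of_mem (Finset.mem_range.2 hj),
    Finset.card_range] at h7
  omega

theorem q4i : ∀ r < G.R, ∀ k < 6, ∀ i j m n : ℕ, i < j → j < m → m < n → n < 6 → S.C r k i →
    S.C r k j → S.C r k m → S.C r k n → S.Q r k := by
  intro r hr k hk i j m n hij hjm hmn hn hi hj hm hn'
  rw [W.hQ r hr k hk]
  have hne : ∀ a b, a < b → b < 6 → x a ≠ x b := fun a b hab hb h =>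
    hab.ne (W.xi a (hab.trans hb) b hb h)
  refine four_le (i := x i) (j := x j) (m := x m) (t := x n) ?_
    ((W.hC r hr k hk i (by omega)).1 hi) ((W.hC r hr k hk j (by omega)).1 hj)
    ((W.hC r hr k hk m (by omega)).1 hm) ((W.hC r hr k hk n hn).1 hn')
  simp [hne i j hij (by omega), hne i m (by omega) (by omega), hne i n (by omega) hn,
    hne j m hjm (by omega), hne j n (by omega) hn, hne m n hmn hn]

theorem q4ge : ∀ r < G.R, ∀ k < 6, S.Q r k → ∀ i j m : ℕ, i < j → j < m → m < 6 →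
    S.C r k i ∨ S.C r k j ∨ S.C r k m := by
  intro r hr k hk hQ i j m hij hjm hm
  rw [W.hQ r hr k hk] at hQ
  by_contra hcon
  push Not at hcon
  have h3 : (T (pt (c r) (u + (k : ℝ)))).ncard ≤ 3 := by
    refine W.card3 (B := (((Finset.range 6).erase i).erase j).erase m) ?_ fun n hn hx => ?_
    · rw [Finset.card_erase_of_mem, Finset.card_erase_of_mem, Finset.card_erase_of_mem,
        Finset.card_range]
      · exact Finset.mem_range.2 (by omega)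
      · simp only [Finset.mem_erase, Finset.mem_range]; omega
      · simp only [Finset.mem_erase, Finset.mem_range]; omega
    · rw [← W.hC r hr k hk n hn] at hx
      simp only [Finset.mem_erase, Finset.mem_range]
      refine ⟨?_, ?_, ?_, hn⟩
      · rintro rfl; exact hcon.2.2 hx
      · rintro rfl; exact hcon.2.1 hx
      · rintro rfl; exact hcon.1 hx
  omega

/-! ### fields of two rings -/

theorem single2 : ∀ r < G.R, ∀ s < G.R, (G.adj r s || G.adj s r) = true → ∀ k < 6, Off S r s k →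
    ∀ i < 6, (∀ j < 6, S.C r k j → j = i) → ¬ S.C s k i := by
  intro r hr s hs ha k hk _ i hi h hc
  rw [W.hC s hs k hk i hi] at hc
  refine cross_single (W.dcs hr hs ha) W.wt.irr ?_ hc
  refine W.sub fun j hj hx => ?_
  rw [mem_singleton_iff, h j hj ((W.hC r hr k hk j hj).2 hx)]

theorem notsub2 : ∀ r < G.R, ∀ s < G.R, (G.adj r s || G.adj s r) = true → ∀ k < 6, Off S r s k →
    ∀ B : Finset ℕ, B.card ≤ 3 → (∀ i < 6, S.C s k i → i ∈ B) →
    ∃ i < 6, S.C r k i ∧ ¬ S.C s k i := by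
  intro r hr s hs ha k hk _ B hB h
  by_contra hcon
  push Not at hcon
  refine cross_notsub (W.dcs hr hs ha) W.wt.irr (W.at3 hs hk hB h) (W.sub fun i hi hx => ?_)
  exact (W.hC s hs k hk i hi).1 (hcon i hi ((W.hC r hr k hk i hi).2 hx))

theorem faceC : ∀ r < G.R, ∀ s < G.R, (G.adj r s || G.adj s r) = true → ∀ k < 6, Off S r s k →
    ∀ B : Finset ℕ, B.card ≤ 3 → (∀ i < 6, S.C s k i → i ∈ B) → ∀ j < 4,
    ¬ ∀ i < 6, S.C r k i → i = G.sg r j ∨ S.C s k i := by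
  intro r hr s hs ha k hk ho B hB h j hj hcon
  obtain ⟨h0, h03⟩ := W.off hr hs ha ho
  refine cross_face_centre (t := x (G.sg r j)) (W.dcs hr hs ha) W.wt.irr h0 h03 (W.at3 hs hk hB h)
    (W.sub fun i hi hx => ?_) ?_
  · rcases hcon i hi ((W.hC r hr k hk i hi).2 hx) with h1 | h1
    · exact Or.inl (by rw [h1])
    · exact Or.inr ((W.hC s hs k hk i hi).1 h1)
  · rw [(W.cen r hr).pal]
    have : j = 0 ∨ j = 1 ∨ j = 2 ∨ j = 3 := by omega
    rcases this with rfl | rfl | rfl | rfl <;> simp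

/-- the exceptions of a neighbour and the partner -/
theorem off2 {r s : ℕ} (hr : r < G.R) (hs : s < G.R) (h : (G.adj r s || G.adj s r) = true)
    {k m : ℕ} (hm : m = 1 ∨ m = 5) (ho : Off S r s (k + 2 * m)) :
    ∃ v : ℝ, Nx (u + (k : ℝ)) v ∧ pt (c r) (u + (((k + m) % 6 : ℕ) : ℝ)) = pt (c r) v ∧
      pt (c r) (u + (k : ℝ) + 2 * (v - (u + (k : ℝ)))) ≠ c s ∧
      pt (c r) (u + (k : ℝ) + 2 * (v - (u + (k : ℝ))) + 3) ≠ c s := by
  obtain ⟨v, hv, e1, e2, e3⟩ := nx (c r) u k hm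
  obtain ⟨h0, h03⟩ := W.off hr hs h ho
  refine ⟨v, hv, e1, ?_, ?_⟩
  · rw [← e2, pt_add_nat_mod]; exact h0
  · rw [← e3, pt_add_nat_mod]
    have e : u + (((k + 2 * m + 3 : ℕ)) : ℝ) = u + ((k + 2 * m : ℕ) : ℝ) + 3 := by push_cast; ring
    rw [e]; exact h03

theorem faceD : ∀ r < G.R, ∀ s < G.R, (G.adj r s || G.adj s r) = true → ∀ k < 6, Off S r s k →
    ∀ m, m = 1 ∨ m = 5 → Off S r s (k + 2 * m) →
    ∀ B : Finset ℕ, B.card ≤ 3 → (∀ i < 6, S.C s k i → i ∈ B) → ∀ j < 6,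
    (∀ i < 6, S.C r k i → i = j ∨ S.C s k i) → ¬ S.C r ((k + m) % 6) j := by
  intro r hr s hs ha k hk _ m hm ho B hB h j hj hcon hc
  obtain ⟨v, hv, e, h2, h5⟩ := W.off2 hr hs ha hm ho
  rw [W.hC r hr _ (mod6 _) j hj, e] at hc
  refine cross_face_nx (t := x j) (W.dcs hr hs ha) W.wt.irr hv h2 h5 (W.at3 hs hk hB h)
    (W.sub fun i hi hx => ?_) hc
  rcases hcon i hi ((W.hC r hr k hk i hi).2 hx) with h1 | h1
  · exact Or.inl (by rw [h1])
  · exact Or.inr ((W.hC s hs k hk i hi).1 h1)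

theorem faceE : ∀ r < G.R, ∀ s < G.R, (G.adj r s || G.adj s r) = true → ∀ k < 6, Off S r s k →
    ∀ m, m = 1 ∨ m = 5 → Off S r s (k + 2 * m) →
    ∀ B : Finset ℕ, B.card ≤ 3 → (∀ i < 6, S.C r ((k + m) % 6) i → i ∈ B) → ∀ j < 6,
    (∀ i < 6, S.C r k i → i = j ∨ S.C r ((k + m) % 6) i) → ¬ S.C s k j := by
  intro r hr s hs ha k hk _ m hm ho B hB h j hj hcon hc
  obtain ⟨v, hv, e, h2, h5⟩ := W.off2 hr hs ha hm ho
  have h3 := W.nx3 hr hB h
  rw [e] at h3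
  rw [W.hC s hs k hk j hj] at hc
  refine cross_face_partner (t := x j) (W.dcs hr hs ha) W.wt.irr hv h2 h5 h3
    (W.sub fun i hi hx => ?_) hc
  rw [← e]
  rcases hcon i hi ((W.hC r hr k hk i hi).2 hx) with h1 | h1
  · exact Or.inl (by rw [h1])
  · exact Or.inr ((W.hC r hr _ (mod6 _) i hi).1 h1)

theorem hubB : ∀ r < G.R, ∀ s < G.R, (G.adj r s || G.adj s r) = true → ∀ k < 6, Off S r s k →
    ∀ i < 2, ∀ q, 2 ≤ q → q < 4 → ∀ j < 6,
    (∀ m < 6, S.C r k m → m = G.sg r i ∨ m = G.sg r q ∨ m = j) → j ≠ G.sg r i → j ≠ G.sg r q →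
    ¬ S.C s k j := by
  intro r hr s hs ha k hk ho i hi q hq hq4 j hj h _ _ hc
  obtain ⟨h0, h03⟩ := W.off hr hs ha ho
  rw [W.hC s hs k hk j hj] at hc
  have hz := W.cen r hr
  refine cross_facehub (t := x j) (W.dcs hr hs ha) W.wt.irr hz (dnodup hz) (i := x (G.sg r i))
    (j := x (G.sg r q)) (pick2 (y := fun n => x (G.sg r n)) hi)
    (pick4 (y := fun n => x (G.sg r n)) hq hq4) h0 h03 (W.sub fun m hm hx => ?_) hc
  rcases h m hm ((W.hC r hr k hk m hm).2 hx) with h1 | h1 | h1 <;> rw [h1] <;> simp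

theorem insubB : ∀ r < G.R, ∀ s < G.R, (G.adj r s || G.adj s r) = true → ∀ k < 6, Off S r s k →
    ∀ w < 16, S.D s k w → (∀ i < 6, S.C r k i → S.C s k i) →
    (S.C r k (pc G s w 0) ↔ S.C r k (pc G s w 1)) ∧ (S.C r k (pc G s w 2) ↔ S.C r k (pc G s w 3)) ∧
      ¬ (S.C r k (pc G s w 0) ∧ S.C r k (pc G s w 2)) := by
  intro r hr s hs ha k hk _ w hw hD h
  have hu := W.hD s hs k hk w hw hD
  have hpc : ∀ j < 4, pc G s w j < 6 := fun j hj => W.sgl s hs _ (prt_lt w hw j hj)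
  have hs' : T (pt (c r) (u + (k : ℝ))) ⊆ T (pt (c s) (u + (k : ℝ))) :=
    W.sub fun i hi hx => (W.hC s hs k hk i hi).1 (h i hi ((W.hC r hr k hk i hi).2 hx))
  have hd : dist (pt (c r) (u + (k : ℝ))) (pt (c s) (u + (k : ℝ))) = 1 :=
    dist_partner_one (W.dcs hr hs ha) _
  obtain ⟨h1, h2⟩ := insub_pair W.wt hu (dnodup hu) hd hs'
  rw [W.hC r hr k hk _ (hpc 0 (by norm_num)), W.hC r hr k hk _ (hpc 1 (by norm_num)),
    W.hC r hr k hk _ (hpc 2 (by norm_num)), W.hC r hr k hk _ (hpc 3 (by norm_num))]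
  exact ⟨h1, h2, fun h3 => insub_mixed W.wt hu (dnodup hu) hd hs' (Or.inl rfl) (Or.inl rfl)
    h3.1 h3.2⟩

theorem two : ∀ r < G.R, ∀ s < G.R, G.adj r s = true → ∀ k < 6, Off S r s k →
    ∀ i j m u' v : ℕ, i < j → j < m → m < 6 → u' < 6 → v < 6 → u' ≠ i → u' ≠ j → u' ≠ m →
    v ≠ i → v ≠ j → v ≠ m → S.C r k i → S.C r k j → S.C r k m → S.C r k u' → S.C s k i →
    S.C s k j → S.C s k m → ¬ S.C s k v := by
  intro r hr s hs ha k hk _ i j m u' v hij hjm hm hu hv ui uj um vi vj vm ri rj rm ru si sj sm sv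
  have hne : ∀ a b, a ≠ b → a < 6 → b < 6 → x a ≠ x b := fun a b hab ha hb h =>
    hab (W.xi a ha b hb h)
  have hi6 : i < 6 := by omega
  have hj6 : j < 6 := by omega
  have ij : x i ≠ x j := hne i j (by omega) hi6 hj6
  have im : x i ≠ x m := hne i m (by omega) hi6 hm
  have jm : x j ≠ x m := hne j m (by omega) hj6 hm
  rw [W.hC r hr k hk i hi6] at ri
  rw [W.hC r hr k hk j hj6] at rj
  rw [W.hC r hr k hk m hm] at rm
  rw [W.hC r hr k hk u' hu] at ru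
  rw [W.hC s hs k hk i hi6] at si
  rw [W.hC s hs k hk j hj6] at sj
  rw [W.hC s hs k hk m hm] at sm
  rw [W.hC s hs k hk v hv] at sv
  have hp : 4 ≤ (T (pt (c r) (u + (k : ℝ)))).ncard := by
    refine four_le ?_ ri rj rm ru
    simp [ij, im, jm, hne i u' (Ne.symm ui) hi6 hu, hne j u' (Ne.symm uj) hj6 hu,
      hne m u' (Ne.symm um) hm hu]
  have hq : 4 ≤ (T (pt (c s) (u + (k : ℝ)))).ncard := by
    refine four_le ?_ si sj sm sv
    simp [ij, im, jm, hne i v (Ne.symm vi) hi6 hv, hne j v (Ne.symm vj) hj6 hv,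
      hne m v (Ne.symm vm) hm hv]
  refine R2.H492.two W.wt ?_ hp hq ij im jm ri rj rm si sj sm
  exact dist_partner_one (W.dcs hr hs (by rw [ha]; rfl)) _

end PW

end Vale.Agent.P032.R2.H492
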