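import Vale.Agent.P032.R2.H609.WFam
import Vale.Agent.P032.R2.H492.Face

/-!
# P032: the points behind the flanks of a contact (family `out2`)

`z = {ab|cd}`, `y` on `S(z)` with `T y = {a, b, e, f}`, `p` a common neighbour.  `flank_acc`: `p` is a limit
of exact `cd`-arcs of `S(z)`.  `out_acc`: if `y = {ae|bf}` then `y + p - z` is a limit of exact `ae`-arcs or
of exact `bf`-arcs of `S(y)`.  `f_out2`: two places beside an S4r point of `S(z)` the circle `S(z)` has
limits of exact arcs.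
-/

set_option autoImplicit false

open Set Filter Topology Metric

noncomputable section

namespace Vale.Agent.P032.Six

open S5.H767 (Ex Lt Xs pt Ctr sub_of_closure dist_of_closure dist_pt dist_pt_one pt_sum ex_self
  line_free)
open Vale.Agent.P032.Words Vale.Agent.P032.R2.H492

variable {U : Fin 6 → Set ℂ} {T : ℂ → Set (Fin 6)} {z y p q : ℂ} {a b c d e f : Fin 6}

namespace WT

/-- **a flank is a limit of exact arcs** -/
theorem flank_acc (H : WT U T) (hmin : MinF U T) (hz : DPt T z a b c d)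
    (nd : [a, b, c, d, e, f].Nodup) (hyz : dist y z = 1) (hTy : T y = {a, b, e, f})
    (hpz : dist p z = 1) (hpy : dist p y = 1) : p ∈ closure (Ex T z {c, d}) := by
  have h := H.irr
  obtain ⟨⟨ab, ac, ad, ae, af⟩, ⟨bc, bd, be, bf⟩, ⟨cd, ce, cf⟩, ⟨de, df⟩, ef⟩ := nodup_sep nd
  have hy4 : 4 ≤ (T y).ncard := by
    rw [hTy, card_four (by simp [ab, ae, af, be, bf, ef])]
  have ha : a ∈ T y := by rw [hTy]; simp
  have hb : b ∈ T y := by rw [hTy]; simp
  obtain ⟨⟨hc, hd⟩, hna, hnb⟩ := H.flank_same hmin hz nd hyz hTy hpz hpy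
  have hnef : ¬ (e ∈ T p ∧ f ∈ T p) := fun hh =>
    H.f_flank4_core hmin hz nd hyz hpz hpy hy4 ha hb hh.1 hh.2
  -- the third colour
  obtain ⟨x, hxy, hsub⟩ : ∃ x, x ∈ T y ∧ T p ⊆ {c, d, x} := by
    by_cases he : e ∈ T p
    · refine ⟨e, by rw [hTy]; simp, fun j hj => ?_⟩
      rcases nodup_all609 nd j with rfl | rfl | rfl | rfl | rfl | rfl
      · exact absurd hj hna
      · exact absurd hj hnb
      · simp
      · simp
      · simp
      · exact absurd ⟨he, hj⟩ hnef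
    · refine ⟨f, by rw [hTy]; simp, fun j hj => ?_⟩
      rcases nodup_all609 nd j with rfl | rfl | rfl | rfl | rfl | rfl
      · exact absurd hj hna
      · exact absurd hj hnb
      · simp
      · simp
      · exact absurd hj he
      · simp
  by_contra hcl
  obtain ⟨o1, o2⟩ := off609 hyz hpz
  refine line_free h hpz (t := x) ?_ hpy o1 o2 (h.sub _ hxy)
  have h1 : ∀ᶠ q in 𝓝 p, q ∉ Ex T z {c, d} := by
    have := isClosed_closure.isOpen_compl.mem_nhds (show p ∈ (closure (Ex T z {c, d}))ᶜ from hcl)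
    filter_upwards [this] with q hq hq'
    exact hq (subset_closure hq')
  filter_upwards [mem_nhdsWithin_of_mem_nhds h1, mem_nhdsWithin_of_mem_nhds (h.nhd p),
    self_mem_nhdsWithin] with q hq1 hq2 hq3
  by_contra hxq
  have hqcd : T q ⊆ {c, d} := by
    intro j hj
    rcases hsub (hq2 hj) with h4 | h4 | h4
    · exact Or.inl h4
    · exact Or.inr h4
    · rw [mem_singleton_iff] at h4
      exact absurd (h4 ▸ hj) hxq
  refine hq1 ⟨hq3, h.pair_open (Set.ncard_pair cd) ?_ hqcd⟩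
  rw [hz.pal]
  rintro j (rfl | hj)
  · simp
  · rw [mem_singleton_iff] at hj; rw [hj]; simp

/-- **behind a flank**: `y = {ae|bf}` -/
theorem out_acc (H : WT U T) (hmin : MinF U T) (hz : DPt T z a b c d)
    (nd : [a, b, c, d, e, f].Nodup) (hyz : dist y z = 1) (hy : DPt T y a e b f)
    (hpz : dist p z = 1) (hpy : dist p y = 1) :
    y + p - z ∈ closure (Ex T y {a, e}) ∨ y + p - z ∈ closure (Ex T y {b, f}) := by
  have h := H.irr
  obtain ⟨⟨ab, ac, ad, ae, af⟩, ⟨bc, bd, be, bf⟩, ⟨cd, ce, cf⟩, ⟨de, df⟩, ef⟩ := nodup_sep nd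
  have hTy : T y = {a, b, e, f} := by
    rw [hy.pal]
    ext j
    simp only [mem_insert_iff, mem_singleton_iff]
    tauto
  have hacc := H.flank_acc hmin hz nd hyz hTy hpz hpy
  have key : ∀ g ∈ Ex T z {c, d}, y + g - z ∈ Ex T y {a, e} ∪ Ex T y {b, f} := by
    intro g hg
    have h1 := H.over_same hz nd hyz hTy (g := g) hg
    have hd1 : dist (y + g - z) y = 1 := by
      rw [show y + g - z = g + (y - z) by ring, dist_eq_norm,
        show g + (y - z) - y = g - z by ring, ← dist_eq_norm]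
      exact hg.1
    have hs1 : ({a, e} : Set (Fin 6)) ⊆ T y := by
      rw [hy.pal]
      rintro j (rfl | hj)
      · simp
      · rw [mem_singleton_iff] at hj; rw [hj]; simp
    have hs2 : ({b, f} : Set (Fin 6)) ⊆ T y := by
      rw [hy.pal]
      rintro j (rfl | hj)
      · simp
      · rw [mem_singleton_iff] at hj; rw [hj]; simp
    rcases H.inside hy hd1 h1 with h2 | h2
    · exact Or.inl ⟨hd1, h.pair_open (Set.ncard_pair ae) hs1 h2.subset⟩
    · exact Or.inr ⟨hd1, h.pair_open (Set.ncard_pair bf) hs2 h2.subset⟩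
  have h3 : y + p - z ∈ closure (Ex T y {a, e} ∪ Ex T y {b, f}) := by
    rw [mem_closure_iff_nhds]
    intro V hV
    have hcont : Tendsto (fun q : ℂ => y + q - z) (𝓝 p) (𝓝 (y + p - z)) := by
      have : Continuous fun q : ℂ => y + q - z := by fun_prop
      exact this.tendsto p
    obtain ⟨g, hgV, hg⟩ := mem_closure_iff_nhds.1 hacc _ (hcont hV)
    exact ⟨y + g - z, hgV, key g hg⟩
  rw [closure_union] at h3
  exact h3

/-- family `out2`, for `ac|ef` at `pt z v`; `σ = 1` or `σ = -1` -/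
theorem f_out2_acc (H : WT U T) (hmin : MinF U T) (hz : DPt T z a b c d)
    (nd : [a, b, c, d, e, f].Nodup) {v σ : ℝ} (hσ : σ = 1 ∨ σ = -1)
    (hD : DPt T (pt z v) a c e f) :
    pt z (v + 2 * σ) ∈ closure (Ex T z {a, b}) ∨ pt z (v + 2 * σ) ∈ closure (Ex T z {c, d}) := by
  obtain ⟨⟨ab, ac, ad, ae, af⟩, ⟨bc, bd, be, bf⟩, ⟨cd, ce, cf⟩, ⟨de, df⟩, ef⟩ := nodup_sep nd
  have nd' : [a, c, e, f, b, d].Nodup := by
    simp [ab, ac, ad, ae, af, Ne.symm bc, cd, ce, cf, Ne.symm be, Ne.symm bf, Ne.symm de,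
      Ne.symm df, bd, ef]
  have hN : Nx v (v + σ) := by
    rcases hσ with rfl | rfl
    · exact Or.inl rfl
    · exact Or.inr (by ring)
  have h1 : dist z (pt z v) = 1 := by rw [dist_comm]; exact dist_pt z v
  have h2 : dist (pt z (v + σ)) (pt z v) = 1 := by rw [dist_comm]; exact hN.dist z
  have h3 := H.out_acc hmin hD nd' h1 hz h2 (dist_pt z (v + σ))
  have e1 : z + pt z (v + σ) - pt z v = pt z (v + 2 * σ) := by
    rcases hσ with rfl | rfl
    · have := pt_sum z v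
      rw [show v + 2 * 1 = v + 2 by ring]
      linear_combination -this
    · have := pt_sum z (v - 2)
      rw [show v - 2 + 2 = v by ring, show v - 2 + 1 = v - 1 by ring] at this
      rw [show v + 2 * -1 = v - 2 by ring, show v + -1 = v - 1 by ring]
      linear_combination -this
  rwa [e1] at h3

/-- family `out2`, palettes -/
theorem f_out2 (H : WT U T) (hmin : MinF U T) (hz : DPt T z a b c d)
    (nd : [a, b, c, d, e, f].Nodup) {v σ : ℝ} (hσ : σ = 1 ∨ σ = -1)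
    (hD : DPt T (pt z v) a c e f) :
    (a ∈ T (pt z (v + 2 * σ)) ∧ b ∈ T (pt z (v + 2 * σ))) ∨
      (c ∈ T (pt z (v + 2 * σ)) ∧ d ∈ T (pt z (v + 2 * σ))) := by
  rcases H.f_out2_acc hmin hz nd hσ hD with h1 | h1
  · have h2 := sub_of_closure H.irr h1
    exact Or.inl ⟨h2 (by simp), h2 (by simp)⟩
  · have h2 := sub_of_closure H.irr h1
    exact Or.inr ⟨h2 (by simp), h2 (by simp)⟩

/-- family `out2`, `ad|ef` -/
theorem f_out2_ad (H : WT U T) (hmin : MinF U T) (hz : DPt T z a b c d)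
    (nd : [a, b, c, d, e, f].Nodup) {v σ : ℝ} (hσ : σ = 1 ∨ σ = -1)
    (hD : DPt T (pt z v) a d e f) :
    (a ∈ T (pt z (v + 2 * σ)) ∧ b ∈ T (pt z (v + 2 * σ))) ∨
      (c ∈ T (pt z (v + 2 * σ)) ∧ d ∈ T (pt z (v + 2 * σ))) := by
  obtain ⟨⟨ab, ac, ad, ae, af⟩, ⟨bc, bd, be, bf⟩, ⟨cd, ce, cf⟩, ⟨de, df⟩, ef⟩ := nodup_sep nd
  have nd' : [a, b, d, c, e, f].Nodup := by
    simp [ab, ac, ad, ae, af, bc, bd, be, bf, Ne.symm cd, ce, cf, de, df, ef]
  have := H.f_out2 hmin hz.swap34 nd' hσ hD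
  tauto

/-- family `out2`, `bc|ef` -/
theorem f_out2_bc (H : WT U T) (hmin : MinF U T) (hz : DPt T z a b c d)
    (nd : [a, b, c, d, e, f].Nodup) {v σ : ℝ} (hσ : σ = 1 ∨ σ = -1)
    (hD : DPt T (pt z v) b c e f) :
    (a ∈ T (pt z (v + 2 * σ)) ∧ b ∈ T (pt z (v + 2 * σ))) ∨
      (c ∈ T (pt z (v + 2 * σ)) ∧ d ∈ T (pt z (v + 2 * σ))) := by
  obtain ⟨⟨ab, ac, ad, ae, af⟩, ⟨bc, bd, be, bf⟩, ⟨cd, ce, cf⟩, ⟨de, df⟩, ef⟩ := nodup_sep nd
  have nd' : [b, a, c, d, e, f].Nodup := by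
    simp [Ne.symm ab, ac, ad, ae, af, bc, bd, be, bf, cd, ce, cf, de, df, ef]
  have := H.f_out2 hmin hz.swap12 nd' hσ hD
  tauto

/-- family `out2`, `bd|ef` -/
theorem f_out2_bd (H : WT U T) (hmin : MinF U T) (hz : DPt T z a b c d)
    (nd : [a, b, c, d, e, f].Nodup) {v σ : ℝ} (hσ : σ = 1 ∨ σ = -1)
    (hD : DPt T (pt z v) b d e f) :
    (a ∈ T (pt z (v + 2 * σ)) ∧ b ∈ T (pt z (v + 2 * σ))) ∨
      (c ∈ T (pt z (v + 2 * σ)) ∧ d ∈ T (pt z (v + 2 * σ))) := by
  obtain ⟨⟨ab, ac, ad, ae, af⟩, ⟨bc, bd, be, bf⟩, ⟨cd, ce, cf⟩, ⟨de, df⟩, ef⟩ := nodup_sep nd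
  have nd' : [b, a, c, d, e, f].Nodup := by
    simp [Ne.symm ab, ac, ad, ae, af, bc, bd, be, bf, cd, ce, cf, de, df, ef]
  have := H.f_out2_ad hmin hz.swap12 nd' hσ hD
  tauto

/-- family `out2` at the centre of a coupled ring: `y = {ae|bf}` at `pt z v`, `pt y (v + σ)` -/
theorem f_outy (H : WT U T) (hmin : MinF U T) (hz : DPt T z a b c d)
    (nd : [a, b, c, d, e, f].Nodup) {v σ : ℝ} (hσ : σ = 1 ∨ σ = -1) (hv : pt z v = y)
    (hy : DPt T y a e b f) :
    (a ∈ T (pt y (v + σ)) ∧ e ∈ T (pt y (v + σ))) ∨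
      (b ∈ T (pt y (v + σ)) ∧ f ∈ T (pt y (v + σ))) := by
  have hN : Nx v (v + σ) := by
    rcases hσ with rfl | rfl
    · exact Or.inl rfl
    · exact Or.inr (by ring)
  have h1 : dist y z = 1 := by rw [← hv]; exact dist_pt z v
  have h2 : dist (pt z (v + σ)) y = 1 := by rw [← hv, dist_comm]; exact hN.dist z
  have e1 : y + pt z (v + σ) - z = pt y (v + σ) := (pt_tr z y (v + σ)).symm
  have h3 := H.out_acc hmin hz nd h1 hy (dist_pt z (v + σ)) h2
  rw [e1] at h3
  rcases h3 with h3 | h3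
  · have h4 := sub_of_closure H.irr h3
    exact Or.inl ⟨h4 (by simp), h4 (by simp)⟩
  · have h4 := sub_of_closure H.irr h3
    exact Or.inr ⟨h4 (by simp), h4 (by simp)⟩

end WT

end Vale.Agent.P032.Six
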