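import Vale.Agent.P032.R2.H492.Fields
import Vale.Agent.P032.R2.H492.Out2
import Vale.Agent.P032.R2.H609.WFam

/-!
# P032: the fields `q4e dQ dC dd dH hQ q4cases notri swap4 flanksame flank4 flankr out2` of
`H741/TpF.lean`

`PM G S U T c x u`: the world `PW` with minimality, harmless points and the two-pair points as an
equivalence.
-/

set_option autoImplicit false

open Set Filter Topology Metric

noncomputable section

namespace Vale.Agent.P032.R2.H492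

open Vale.Agent.P032.Six Vale.Agent.P032.Words
open Vale.Agent.P032.R2.H741.Tp (RD Sem Off prt pc)
open Vale.Agent.P032.S5.H767 (pt dist_pt dist_pt_one pt_three pt_sum pt_six pt_off tri
  pt_add_nat_mod)

/-- a two-pair point is not harmless -/
theorem dpt_not_harm {T : ℂ → Set (Fin 6)} {y : ℂ} {a b c d : Fin 6} {A : Set (Fin 6)}
    (h : DPt T y a b c d) (hA : Harm T y A) : False := by
  obtain ⟨p, hp⟩ := h.arc1
  obtain ⟨q, hq⟩ := h.arc2
  have h1 : A ⊆ {a, b} := by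
    have h2 := hA.h1 p hp.1 (by rw [hp.mem, h.pal]; intro i hi; rcases hi with rfl | hi
                                · simp
                                · rw [mem_singleton_iff] at hi; rw [hi]; simp)
    rwa [hp.mem] at h2
  have h3 : A ⊆ {c, d} := by
    have h2 := hA.h1 q hq.1 (by rw [hq.mem, h.pal]; intro i hi; rcases hi with rfl | hi
                                · simp
                                · rw [mem_singleton_iff] at hi; rw [hi]; simp)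
    rwa [hq.mem] at h2
  have h4 : A.Nonempty := by
    rw [← Set.ncard_pos (Set.toFinite _), hA.cardA]; norm_num
  obtain ⟨i, hi⟩ := h4
  rcases h1 hi with e1 | e1 <;> rcases h3 hi with e2 | e2
  · exact h.ac (e1.symm.trans e2)
  · exact h.ad (e1.symm.trans e2)
  · rw [mem_singleton_iff] at e1; exact h.bc (e1.symm.trans e2)
  · rw [mem_singleton_iff] at e1; exact h.bd (e1.symm.trans e2)

/-- the pairs of a two-pair point -/
theorem dpt_pairs {U : Fin 6 → Set ℂ} {T : ℂ → Set (Fin 6)} (H : WT U T) {y : ℂ}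
    {a b c d a' b' c' d' : Fin 6} (h : DPt T y a b c d) (h' : DPt T y a' b' c' d') :
    (({a, b} : Set (Fin 6)) = {a', b'} ∨ ({a, b} : Set (Fin 6)) = {c', d'}) ∧
      (({c, d} : Set (Fin 6)) = {a', b'} ∨ ({c, d} : Set (Fin 6)) = {c', d'}) := by
  obtain ⟨p, hp⟩ := h.arc1
  obtain ⟨q, hq⟩ := h.arc2
  have h1 := H.inside h' hp.1 (by rw [hp.mem, h.pal]; intro i hi; rcases hi with rfl | hi
                                  · simp
                                  · rw [mem_singleton_iff] at hi; rw [hi]; simp)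
  have h2 := H.inside h' hq.1 (by rw [hq.mem, h.pal]; intro i hi; rcases hi with rfl | hi
                                  · simp
                                  · rw [mem_singleton_iff] at hi; rw [hi]; simp)
  rw [hp.mem] at h1
  rw [hq.mem] at h2
  exact ⟨h1, h2⟩

/-- the world with minimality and harmless points -/
structure PM (G : RD) (S : Sem) (U : Fin 6 → Set ℂ) (T : ℂ → Set (Fin 6)) (c : ℕ → ℂ)
    (x : ℕ → Fin 6) (u : ℝ) : Prop extends PW G S U T c x u where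
  hmin : MinF U T
  hH : ∀ r < G.R, ∀ k < 6, (S.H r k ↔ ∃ A, Harm T (pt (c r) (u + (k : ℝ))) A)
  hD' : ∀ r < G.R, ∀ k : ℕ, k < 6 → ∀ w < 16, DPt T (pt (c r) (u + (k : ℝ))) (x (pc G r w 0))
    (x (pc G r w 1)) (x (pc G r w 2)) (x (pc G r w 3)) → S.D r k w

variable {G : RD} {S : Sem} {U : Fin 6 → Set ℂ} {T : ℂ → Set (Fin 6)} {c : ℕ → ℂ}
  {x : ℕ → Fin 6} {u : ℝ}

/-- the pair `i, j` of `w` is the pair `m, n` of `w'` -/
def pin (w w' i j m n : ℕ) : Bool :=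
  (Nat.beq (prt w i) (prt w' m) || Nat.beq (prt w i) (prt w' n)) &&
    (Nat.beq (prt w j) (prt w' m) || Nat.beq (prt w j) (prt w' n))

/-- pairs with different numbers are different -/
theorem prt_inj : ∀ w < 16, ∀ w' < 16,
    ((pin w w' 0 1 0 1 || pin w w' 0 1 2 3) && (pin w w' 2 3 0 1 || pin w w' 2 3 2 3)) = true →
    w = w' := by decide

namespace PM

variable (W : PM G S U T c x u)
include W

/-- the colours of a ring -/
theorem yi {r : ℕ} (hr : r < G.R) {i j : ℕ} (hi : i < 6) (hj : j < 6)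
    (h : x (G.sg r i) = x (G.sg r j)) : i = j :=
  W.sgi r hr i hi j hj (W.xi _ (W.sgl r hr i hi) _ (W.sgl r hr j hj) h)

theorem nd {r : ℕ} (hr : r < G.R) : [x (G.sg r 0), x (G.sg r 1), x (G.sg r 2), x (G.sg r 3),
    x (G.sg r 4), x (G.sg r 5)].Nodup := by
  have key : ∀ i j, i < 6 → j < 6 → i ≠ j → x (G.sg r i) ≠ x (G.sg r j) := fun i j hi hj hij h =>
    hij (W.yi hr hi hj h)
  simp [key]

theorem q4e : ∀ r < G.R, ∀ k < 6, S.Q r k → S.C r k (G.sg r 4) ∧ S.C r k (G.sg r 5) := by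
  intro r hr k hk hQ
  rw [W.hC r hr k hk _ (W.sgl r hr 4 (by norm_num)), W.hC r hr k hk _ (W.sgl r hr 5 (by norm_num))]
  exact W.wt.f_q4e (W.cen r hr) (W.nd hr) (dist_pt _ _) ((W.hQ r hr k hk).1 hQ)

theorem dQ : ∀ r < G.R, ∀ k < 6, ∀ w < 16, S.D r k w → S.Q r k := by
  intro r hr k hk w hw hD
  exact (W.hQ r hr k hk).2 (W.hD r hr k hk w hw hD).card.ge

theorem dC : ∀ r < G.R, ∀ k < 6, ∀ w < 16, S.D r k w → ∀ i < 6,
    (S.C r k i ↔ i = pc G r w 0 ∨ i = pc G r w 1 ∨ i = pc G r w 2 ∨ i = pc G r w 3) := by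
  intro r hr k hk w hw hD i hi
  have hpc : ∀ j < 4, pc G r w j < 6 := fun j hj => W.sgl r hr _ (PW.prt_lt w hw j hj)
  rw [W.hC r hr k hk i hi, (W.hD r hr k hk w hw hD).pal]
  simp only [mem_insert_iff, mem_singleton_iff]
  have key : ∀ j < 4, (x i = x (pc G r w j) ↔ i = pc G r w j) := fun j hj =>
    ⟨fun h => W.xi i hi _ (hpc j hj) h, fun h => by rw [h]⟩
  rw [key 0 (by norm_num), key 1 (by norm_num), key 2 (by norm_num), key 3 (by norm_num)]

theorem dd : ∀ r < G.R, ∀ k < 6, ∀ w < 16, ∀ w' < 16, w ≠ w' → S.D r k w → ¬ S.D r k w' := by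
  intro r hr k hk w hw w' hw' hne hD hD'
  obtain ⟨h1, h2⟩ := dpt_pairs W.wt (W.hD r hr k hk w hw hD) (W.hD r hr k hk w' hw' hD')
  have key : ∀ i j m n : ℕ, i < 4 → j < 4 → m < 4 → n < 4 →
      ({x (pc G r w i), x (pc G r w j)} : Set (Fin 6)) = {x (pc G r w' m), x (pc G r w' n)} →
      pin w w' i j m n = true := by
    intro i j m n hi hj hm hn he
    have h3 : x (pc G r w i) ∈ ({x (pc G r w' m), x (pc G r w' n)} : Set (Fin 6)) := by
      rw [← he]; simp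
    have h4 : x (pc G r w j) ∈ ({x (pc G r w' m), x (pc G r w' n)} : Set (Fin 6)) := by
      rw [← he]; simp
    have h5 : ∀ a b, a < 6 → b < 6 → x (G.sg r a) = x (G.sg r b) → a = b := fun a b ha hb h =>
      W.yi hr ha hb h
    unfold pin
    rw [Bool.and_eq_true, Bool.or_eq_true, Bool.or_eq_true, Nat.beq_eq, Nat.beq_eq, Nat.beq_eq,
      Nat.beq_eq]
    constructor
    · rcases h3 with h3 | h3
      · exact Or.inl (h5 _ _ (PW.prt_lt w hw i hi) (PW.prt_lt w' hw' m hm) h3)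
      · exact Or.inr (h5 _ _ (PW.prt_lt w hw i hi) (PW.prt_lt w' hw' n hn) h3)
    · rcases h4 with h4 | h4
      · exact Or.inl (h5 _ _ (PW.prt_lt w hw j hj) (PW.prt_lt w' hw' m hm) h4)
      · exact Or.inr (h5 _ _ (PW.prt_lt w hw j hj) (PW.prt_lt w' hw' n hn) h4)
  refine hne (prt_inj w hw w' hw' ?_)
  rw [Bool.and_eq_true, Bool.or_eq_true, Bool.or_eq_true]
  refine ⟨?_, ?_⟩
  · rcases h1 with h1 | h1
    · exact Or.inl (key 0 1 0 1 (by norm_num) (by norm_num) (by norm_num) (by norm_num) h1)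
    · exact Or.inr (key 0 1 2 3 (by norm_num) (by norm_num) (by norm_num) (by norm_num) h1)
  · rcases h2 with h2 | h2
    · exact Or.inl (key 2 3 0 1 (by norm_num) (by norm_num) (by norm_num) (by norm_num) h2)
    · exact Or.inr (key 2 3 2 3 (by norm_num) (by norm_num) (by norm_num) (by norm_num) h2)

theorem dH : ∀ r < G.R, ∀ k < 6, ∀ w < 16, S.D r k w → ¬ S.H r k := by
  intro r hr k hk w hw hD hH
  obtain ⟨A, hA⟩ := (W.hH r hr k hk).1 hH
  exact dpt_not_harm (W.hD r hr k hk w hw hD) hA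

theorem hQ' : ∀ r < G.R, ∀ k < 6, S.H r k → S.Q r k := by
  intro r hr k hk hH
  obtain ⟨A, hA⟩ := (W.hH r hr k hk).1 hH
  exact (W.hQ r hr k hk).2 hA.card.ge

theorem q4cases : ∀ r < G.R, ∀ k < 6, S.Q r k → S.H r k ∨ ∃ w < 16, S.D r k w := by
  intro r hr k hk hQ
  have h := W.wt.f_q4cases W.hmin (W.cen r hr) (W.nd hr) (dist_pt _ _) ((W.hQ r hr k hk).1 hQ)
  have key : ∀ w < 16, DPt T (pt (c r) (u + (k : ℝ))) (x (pc G r w 0))
      (x (pc G r w 1)) (x (pc G r w 2)) (x (pc G r w 3)) → ∃ w < 16, S.D r k w :=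
    fun w hw hD => ⟨w, hw, W.hD' r hr k hk w hw hD⟩
  rcases h with h | (h | h) | (h | h) | (h | h | h) | (h | h | h) | (h | h | h) | (h | h | h)
  · exact Or.inl ((W.hH r hr k hk).2 h)
  · exact Or.inr (key 0 (by norm_num) h)
  · exact Or.inr (key 1 (by norm_num) h)
  · exact Or.inr (key 2 (by norm_num) h)
  · exact Or.inr (key 3 (by norm_num) h)
  · exact Or.inr (key 4 (by norm_num) h)
  · exact Or.inr (key 5 (by norm_num) h)
  · exact Or.inr (key 6 (by norm_num) h)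
  · exact Or.inr (key 7 (by norm_num) h)
  · exact Or.inr (key 8 (by norm_num) h)
  · exact Or.inr (key 9 (by norm_num) h)
  · exact Or.inr (key 10 (by norm_num) h)
  · exact Or.inr (key 11 (by norm_num) h)
  · exact Or.inr (key 12 (by norm_num) h)
  · exact Or.inr (key 13 (by norm_num) h)
  · exact Or.inr (key 14 (by norm_num) h)
  · exact Or.inr (key 15 (by norm_num) h)

theorem notri : ∀ r < G.R, ∀ k < 6, S.Q r k → ¬ S.Q r ((k + 1) % 6) := by
  intro r hr k hk hQ hQ'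
  rw [W.hQ r hr k hk] at hQ
  obtain ⟨v, hv, e, -, -⟩ := PW.nx (c r) u k (s := 1) (Or.inl rfl)
  rw [W.hQ r hr _ (PW.mod6 _), e] at hQ'
  have h3 := W.wt.f_notri W.hmin (W.cen r hr) (dist_pt _ _) (dist_pt _ _)
    (by rw [dist_comm]; exact hv.dist (c r)) hQ
  omega

theorem swap4 : ∀ r < G.R, ∀ k < 6, ∀ s, s = 1 ∨ s = 5 → S.Q r k →
    S.C r ((k + s) % 6) (G.sg r 4) → S.C r ((k + s) % 6) (G.sg r 5) →
    S.D r k 4 ∨ S.D r k 7 ∨ S.D r k 10 ∨ S.D r k 13 := by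
  intro r hr k hk s hs hQ h4 h5
  obtain ⟨v, hv, e, -, -⟩ := PW.nx (c r) u k hs
  rw [W.hC r hr _ (PW.mod6 _) _ (W.sgl r hr 4 (by norm_num)), e] at h4
  rw [W.hC r hr _ (PW.mod6 _) _ (W.sgl r hr 5 (by norm_num)), e] at h5
  rcases W.wt.f_swap4 W.hmin (W.cen r hr) (W.nd hr) (dist_pt _ _) (dist_pt _ _)
    (by rw [dist_comm]; exact hv.dist (c r)) ((W.hQ r hr k hk).1 hQ) h4 h5 with h | h | h | h
  · exact Or.inl (W.hD' r hr k hk 4 (by norm_num) h)
  · exact Or.inr (Or.inl (W.hD' r hr k hk 7 (by norm_num) h))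
  · exact Or.inr (Or.inr (Or.inl (W.hD' r hr k hk 10 (by norm_num) h)))
  · exact Or.inr (Or.inr (Or.inr (W.hD' r hr k hk 13 (by norm_num) h)))

theorem flanksame : ∀ r < G.R, ∀ k < 6, ∀ s, s = 1 ∨ s = 5 → ∀ p < 2, S.Q r k →
    S.C r k (G.sg r (2 * p)) → S.C r k (G.sg r (2 * p + 1)) →
    S.C r ((k + s) % 6) (G.sg r (2 - 2 * p)) ∧ S.C r ((k + s) % 6) (G.sg r (3 - 2 * p)) ∧
    ¬ S.C r ((k + s) % 6) (G.sg r (2 * p)) ∧ ¬ S.C r ((k + s) % 6) (G.sg r (2 * p + 1)) := by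
  intro r hr k hk s hs p hp hQ h0 h1
  obtain ⟨v, hv, e, -, -⟩ := PW.nx (c r) u k hs
  have hz := W.cen r hr
  have h6 : ∀ j < 6, (S.C r ((k + s) % 6) (G.sg r j) ↔ x (G.sg r j) ∈ T (pt (c r) v)) :=
    fun j hj => by rw [W.hC r hr _ (PW.mod6 _) _ (W.sgl r hr j hj), e]
  rw [h6 _ (by omega), h6 _ (by omega), h6 _ (by omega), h6 _ (by omega)]
  rw [W.hC r hr k hk _ (W.sgl r hr _ (by omega))] at h0 h1
  have hd : dist (pt (c r) v) (pt (c r) (u + (k : ℝ))) = 1 := by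
    rw [dist_comm]; exact hv.dist (c r)
  have : p = 0 ∨ p = 1 := by omega
  rcases this with rfl | rfl
  · obtain ⟨⟨g1, g2⟩, g3, g4⟩ := W.wt.f_flanksame W.hmin hz (W.nd hr) (dist_pt _ _) (dist_pt _ _)
      hd ((W.hQ r hr k hk).1 hQ) h0 h1
    exact ⟨g1, g2, g3, g4⟩
  · obtain ⟨⟨g1, g2⟩, g3, g4⟩ := W.wt.f_flanksame' W.hmin hz (W.nd hr) (dist_pt _ _) (dist_pt _ _)
      hd ((W.hQ r hr k hk).1 hQ) h0 h1
    exact ⟨g1, g2, g3, g4⟩

theorem flank4 : ∀ r < G.R, ∀ k < 6, ∀ s, s = 1 ∨ s = 5 → ∀ w < 4, S.D r k w →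
    ¬ (S.C r ((k + s) % 6) (G.sg r 4) ∧ S.C r ((k + s) % 6) (G.sg r 5)) := by
  intro r hr k hk s hs w hw hD
  obtain ⟨v, hv, e, -, -⟩ := PW.nx (c r) u k hs
  have hz := W.cen r hr
  have h6 : ∀ j < 6, (S.C r ((k + s) % 6) (G.sg r j) ↔ x (G.sg r j) ∈ T (pt (c r) v)) :=
    fun j hj => by rw [W.hC r hr _ (PW.mod6 _) _ (W.sgl r hr j hj), e]
  rw [h6 _ (by omega), h6 _ (by omega)]
  have hd : dist (pt (c r) v) (pt (c r) (u + (k : ℝ))) = 1 := by
    rw [dist_comm]; exact hv.dist (c r)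
  have hD' := W.hD r hr k hk w (by omega) hD
  have : w = 0 ∨ w = 1 ∨ w = 2 ∨ w = 3 := by omega
  rcases this with rfl | rfl | rfl | rfl
  · exact W.wt.f_flank4 W.hmin hz (W.nd hr) (dist_pt _ _) (dist_pt _ _) hd (Or.inl hD')
  · exact W.wt.f_flank4 W.hmin hz (W.nd hr) (dist_pt _ _) (dist_pt _ _) hd (Or.inr hD')
  · exact W.wt.f_flank4' W.hmin hz (W.nd hr) (dist_pt _ _) (dist_pt _ _) hd (Or.inl hD')
  · exact W.wt.f_flank4' W.hmin hz (W.nd hr) (dist_pt _ _) (dist_pt _ _) hd (Or.inr hD')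

theorem flankr : ∀ r < G.R, ∀ k < 6, ∀ s, s = 1 ∨ s = 5 → ∀ i < 2, ∀ q, 2 ≤ q → q < 4 →
    S.D r k (4 + 3 * (2 * i + (q - 2))) →
    S.C r ((k + s) % 6) (G.sg r 4) ∧ S.C r ((k + s) % 6) (G.sg r 5) ∧
    ¬ S.C r ((k + s) % 6) (G.sg r i) ∧ ¬ S.C r ((k + s) % 6) (G.sg r q) ∧
    ¬ (S.C r ((k + s) % 6) (G.sg r (1 - i)) ∧ S.C r ((k + s) % 6) (G.sg r (5 - q))) := by
  intro r hr k hk s hs i hi q hq hq4 hD
  obtain ⟨v, hv, e, -, -⟩ := PW.nx (c r) u k hs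
  have hz := W.cen r hr
  have h6 : ∀ j < 6, (S.C r ((k + s) % 6) (G.sg r j) ↔ x (G.sg r j) ∈ T (pt (c r) v)) :=
    fun j hj => by rw [W.hC r hr _ (PW.mod6 _) _ (W.sgl r hr j hj), e]
  rw [h6 4 (by omega), h6 5 (by omega), h6 i (by omega), h6 q (by omega), h6 (1 - i) (by omega),
    h6 (5 - q) (by omega)]
  have hd : dist (pt (c r) v) (pt (c r) (u + (k : ℝ))) = 1 := by
    rw [dist_comm]; exact hv.dist (c r)
  have hD' := W.hD r hr k hk _ (by omega) hD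
  have hi' : i = 0 ∨ i = 1 := by omega
  have hq' : q = 2 ∨ q = 3 := by omega
  rcases hi' with rfl | rfl <;> rcases hq' with rfl | rfl
  · obtain ⟨⟨g1, g2⟩, g3, g4, g5⟩ := W.wt.f_flankr W.hmin hz (W.nd hr) (dist_pt _ _) (dist_pt _ _)
      hd hD'
    exact ⟨g1, g2, g3, g4, g5⟩
  · obtain ⟨⟨g1, g2⟩, g3, g4, g5⟩ := W.wt.f_flankr_ad W.hmin hz (W.nd hr) (dist_pt _ _)
      (dist_pt _ _) hd hD'
    exact ⟨g1, g2, g3, g4, g5⟩
  · obtain ⟨⟨g1, g2⟩, g3, g4, g5⟩ := W.wt.f_flankr_bc W.hmin hz (W.nd hr) (dist_pt _ _)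
      (dist_pt _ _) hd hD'
    exact ⟨g1, g2, g3, g4, g5⟩
  · obtain ⟨⟨g1, g2⟩, g3, g4, g5⟩ := W.wt.f_flankr_bd W.hmin hz (W.nd hr) (dist_pt _ _)
      (dist_pt _ _) hd hD'
    exact ⟨g1, g2, g3, g4, g5⟩

/-- **out2** -/
theorem out2 : ∀ r < G.R, ∀ k < 6, ∀ s, s = 2 ∨ s = 4 → ∀ i < 2, ∀ q, 2 ≤ q → q < 4 →
    S.D r k (4 + 3 * (2 * i + (q - 2))) →
    (S.C r ((k + s) % 6) (G.sg r 0) ∧ S.C r ((k + s) % 6) (G.sg r 1)) ∨
      (S.C r ((k + s) % 6) (G.sg r 2) ∧ S.C r ((k + s) % 6) (G.sg r 3)) := by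
  intro r hr k hk s hs i hi q hq hq4 hD
  have hz := W.cen r hr
  obtain ⟨σ, hσ, e⟩ : ∃ σ : ℝ, (σ = 1 ∨ σ = -1) ∧
      pt (c r) (u + (((k + s) % 6 : ℕ) : ℝ)) = pt (c r) (u + (k : ℝ) + 2 * σ) := by
    rcases hs with rfl | rfl
    · refine ⟨1, Or.inl rfl, ?_⟩
      rw [pt_add_nat_mod]; congr 1; push_cast; ring
    · refine ⟨-1, Or.inr rfl, ?_⟩
      rw [pt_add_nat_mod, ← pt_six (c r) (u + (k : ℝ) + 2 * -1)]; congr 1; push_cast; ring
  have h6 : ∀ j < 6, (S.C r ((k + s) % 6) (G.sg r j) ↔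
      x (G.sg r j) ∈ T (pt (c r) (u + (k : ℝ) + 2 * σ))) :=
    fun j hj => by rw [W.hC r hr _ (PW.mod6 _) _ (W.sgl r hr j hj), e]
  rw [h6 0 (by omega), h6 1 (by omega), h6 2 (by omega), h6 3 (by omega)]
  have hD' := W.hD r hr k hk _ (by omega) hD
  have hi' : i = 0 ∨ i = 1 := by omega
  have hq' : q = 2 ∨ q = 3 := by omega
  rcases hi' with rfl | rfl <;> rcases hq' with rfl | rfl
  · exact W.wt.f_out2 W.hmin hz (W.nd hr) hσ hD'
  · exact W.wt.f_out2_ad W.hmin hz (W.nd hr) hσ hD'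
  · exact W.wt.f_out2_bc W.hmin hz (W.nd hr) hσ hD'
  · exact W.wt.f_out2_bd W.hmin hz (W.nd hr) hσ hD'

end PM

end Vale.Agent.P032.R2.H492
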