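import Vale.Agent.P032.R2.H492.Cell

/-!
# P032: regions between unit circles at a point

`Rays h`: directions `θ a` (`a ∈ ℤ`), increasing, `θ (a + h) = θ a + π`; neighbours
`nb u b = u + i e^{i θ b}`.  The slots at `u` are `4a` (cusp at the ray `a`), `4a + 1` (germ after the
ray `a`), `4a + 2` (open sector), `4a + 3` (germ before the ray `a + 1`).
`K u c q`: points with the colour `c` accumulate at `u` in the slot `q`.
-/

set_option autoImplicit false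

open Set Filter Topology Metric Complex

noncomputable section

namespace Vale.Agent.P032.Six

/-- directions of rays at a point -/
structure Rays (h : ℤ) where
  θ : ℤ → ℝ
  mono : StrictMono θ
  per : ∀ a, θ (a + h) = θ a + Real.pi

/-- polar coordinates at `u` -/
def pol (u : ℂ) (r φ : ℝ) : ℂ := u + r * exp (φ * I)

variable {k : ℕ} {U : Fin k → Set ℂ} {T : ℂ → Set (Fin k)} {c : Fin k} {h : ℤ}

namespace Rays

variable (R : Rays h)

/-- the neighbour of `u` in the direction `θ b + π / 2` -/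
def nb (u : ℂ) (b : ℤ) : ℂ := pol u 1 (R.θ b + Real.pi / 2)

/-- the point with polar coordinates `r`, `φ` is in the slot `q` (`κ` close) -/
def reg (q : ℤ) (κ r φ : ℝ) : Prop :=
  if q % 4 = 0 then |φ - R.θ (q / 4)| < κ ∧ 2 * |Real.sin (φ - R.θ (q / 4))| < r
  else if q % 4 = 1 then
    φ - R.θ (q / 4) ∈ Ioo 0 κ ∧ r < 2 * Real.sin (φ - R.θ (q / 4))
  else if q % 4 = 2 then φ ∈ Icc (R.θ (q / 4) + κ) (R.θ (q / 4 + 1) - κ)
  else R.θ (q / 4 + 1) - φ ∈ Ioo 0 κ ∧ r < 2 * Real.sin (R.θ (q / 4 + 1) - φ)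

end Rays

theorem dist_pol_sq (u : ℂ) (r φ s ψ : ℝ) :
    dist (pol u r φ) (pol u s ψ) ^ 2 = r ^ 2 + s ^ 2 - 2 * r * s * Real.cos (φ - ψ) := by
  rw [dist_eq_norm, pol, pol, add_sub_add_left_eq_sub, ← Complex.normSq_eq_norm_sq,
    Complex.normSq_apply]
  have e1 : ((r : ℂ) * exp (φ * I) - s * exp (ψ * I)).re = r * Real.cos φ - s * Real.cos ψ := by
    simp [Complex.exp_ofReal_mul_I_re, Complex.exp_ofReal_mul_I_im]
  have e2 : ((r : ℂ) * exp (φ * I) - s * exp (ψ * I)).im = r * Real.sin φ - s * Real.sin ψ := by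
    simp [Complex.exp_ofReal_mul_I_re, Complex.exp_ofReal_mul_I_im]
  rw [e1, e2, Real.cos_sub]
  have h1 := Real.sin_sq_add_cos_sq φ
  have h2 := Real.sin_sq_add_cos_sq ψ
  linear_combination r ^ 2 * h1 + s ^ 2 * h2

theorem Rays.dist_nb_sq (R : Rays h) (u : ℂ) (r φ : ℝ) (b : ℤ) :
    dist (pol u r φ) (R.nb u b) ^ 2 = 1 + r * (r - 2 * Real.sin (φ - R.θ b)) := by
  rw [Rays.nb, dist_pol_sq, show φ - (R.θ b + Real.pi / 2) = (φ - R.θ b) - Real.pi / 2 by ring,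
    Real.cos_sub_pi_div_two]
  ring

theorem Rays.in_iff (R : Rays h) {u : ℂ} {r φ : ℝ} {b : ℤ} (hr : 0 < r) :
    dist (pol u r φ) (R.nb u b) < 1 ↔ r < 2 * Real.sin (φ - R.θ b) := by
  have h1 := R.dist_nb_sq u r φ b
  have h0 : 0 ≤ dist (pol u r φ) (R.nb u b) := dist_nonneg
  constructor
  · intro h2
    by_contra h3
    push Not at h3
    have : 0 ≤ r * (r - 2 * Real.sin (φ - R.θ b)) := mul_nonneg hr.le (by linarith)
    nlinarith
  · intro h2
    by_contra h3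
    push Not at h3
    have : r * (r - 2 * Real.sin (φ - R.θ b)) < 0 := mul_neg_of_pos_of_neg hr (by linarith)
    nlinarith

theorem Rays.out_iff (R : Rays h) {u : ℂ} {r φ : ℝ} {b : ℤ} (hr : 0 < r) :
    1 < dist (pol u r φ) (R.nb u b) ↔ 2 * Real.sin (φ - R.θ b) < r := by
  have h1 := R.dist_nb_sq u r φ b
  have h0 : 0 ≤ dist (pol u r φ) (R.nb u b) := dist_nonneg
  constructor
  · intro h2
    by_contra h3
    push Not at h3
    have : r * (r - 2 * Real.sin (φ - R.θ b)) ≤ 0 :=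
      mul_nonpos_of_nonneg_of_nonpos hr.le (by linarith)
    nlinarith
  · intro h2
    by_contra h3
    push Not at h3
    have : 0 < r * (r - 2 * Real.sin (φ - R.θ b)) := mul_pos hr (by linarith)
    nlinarith

theorem dist_pol (u : ℂ) {r φ : ℝ} (hr : 0 ≤ r) : dist (pol u r φ) u = r := by
  rw [pol, dist_eq_norm, add_sub_cancel_left, norm_mul, Complex.norm_exp_ofReal_mul_I, mul_one,
    Complex.norm_real, Real.norm_of_nonneg hr]

theorem Rays.dist_nb (R : Rays h) (u : ℂ) (b : ℤ) : dist (R.nb u b) u = 1 :=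
  dist_pol u zero_le_one

theorem pol_add_pi (u : ℂ) (r φ : ℝ) : pol u r (φ + Real.pi) = u - r * exp (φ * I) := by
  rw [pol, Complex.ofReal_add, add_mul, Complex.exp_add, Complex.exp_pi_mul_I]
  ring

theorem pol_add_two_pi (u : ℂ) (r φ : ℝ) : pol u r (φ + 2 * Real.pi) = pol u r φ := by
  have h1 : exp (((φ + 2 * Real.pi : ℝ) : ℂ) * I) = exp (φ * I) := by
    rw [show ((φ + 2 * Real.pi : ℝ) : ℂ) * I = φ * I + 2 * Real.pi * I by push_cast; ring,
      Complex.exp_add, Complex.exp_two_pi_mul_I, mul_one]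
  rw [pol, pol, h1]

/-- the neighbour of the neighbour in the opposite direction -/
theorem Rays.nb_nb (R : Rays h) (u : ℂ) (b : ℤ) : R.nb (R.nb u b) (b + h) = u := by
  rw [Rays.nb, R.per, show R.θ b + Real.pi + Real.pi / 2 = R.θ b + Real.pi / 2 + Real.pi by ring,
    pol_add_pi, Rays.nb, pol]
  ring

/-- every point is in polar coordinates -/
theorem exists_pol (u x : ℂ) (α : ℝ) : ∃ φ ∈ Ico α (α + 2 * Real.pi), x = pol u (dist x u) φ := by
  obtain ⟨φ, hφ, h1⟩ : ∃ φ ∈ Ico α (α + 2 * Real.pi), exp (φ * I) = exp (arg (x - u) * I) := by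
    refine ⟨toIcoMod Real.two_pi_pos α (arg (x - u)), toIcoMod_mem_Ico _ _ _, ?_⟩
    rw [toIcoMod, Complex.ofReal_sub, zsmul_eq_mul, Complex.ofReal_mul, Complex.ofReal_intCast,
      sub_mul, Complex.exp_sub, Complex.ofReal_mul, Complex.ofReal_ofNat,
      show (toIcoDiv Real.two_pi_pos α (arg (x - u)) : ℂ) * (2 * Real.pi) * I =
        (toIcoDiv Real.two_pi_pos α (arg (x - u)) : ℂ) * (2 * Real.pi * I) by ring,
      Complex.exp_int_mul_two_pi_mul_I, div_one]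
  refine ⟨φ, hφ, ?_⟩
  rw [pol, h1, dist_eq_norm, Complex.norm_mul_exp_arg_mul_I]
  ring

namespace Rays

variable (R : Rays h)

/-- no point of the colour `c` accumulates at `u` in the slot `q` -/
def Clear (T : ℂ → Set (Fin k)) (u : ℂ) (q : ℤ) (c : Fin k) : Prop :=
  ∀ᶠ κ in 𝓝[>] (0 : ℝ), ∀ᶠ r in 𝓝[>] (0 : ℝ), ∀ φ, R.reg q κ r φ → c ∉ T (pol u r φ)

theorem per2 (a : ℤ) : R.θ (a + 2 * h) = R.θ a + 2 * Real.pi := by
  rw [show a + 2 * h = a + h + h by ring, R.per, R.per]; ring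

include R in
theorem h_pos : 0 < h := by
  by_contra hcon
  push Not at hcon
  have h1 := R.per 0
  have h2 := R.mono.monotone (show (0 : ℤ) + h ≤ 0 by omega)
  linarith [Real.pi_pos]

/-- slots of one period -/
theorem reg_per (q : ℤ) (κ r φ : ℝ) : R.reg (q + 8 * h) κ r (φ + 2 * Real.pi) ↔ R.reg q κ r φ := by
  have e1 : (q + 8 * h) % 4 = q % 4 := by omega
  have e2 : (q + 8 * h) / 4 = q / 4 + 2 * h := by omega
  rw [reg, reg, e1, e2, R.per2, show q / 4 + 2 * h + 1 = q / 4 + 1 + 2 * h by ring, R.per2,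
    show φ + 2 * Real.pi - (R.θ (q / 4) + 2 * Real.pi) = φ - R.θ (q / 4) by ring,
    show R.θ (q / 4 + 1) + 2 * Real.pi - (φ + 2 * Real.pi) = R.θ (q / 4 + 1) - φ by ring]
  have e3 : φ + 2 * Real.pi ∈ Icc (R.θ (q / 4) + 2 * Real.pi + κ)
      (R.θ (q / 4 + 1) + 2 * Real.pi - κ) ↔ φ ∈ Icc (R.θ (q / 4) + κ) (R.θ (q / 4 + 1) - κ) := by
    simp only [mem_Icc]
    constructor
    · rintro ⟨h1, h2⟩; exact ⟨by linarith, by linarith⟩
    · rintro ⟨h1, h2⟩; exact ⟨by linarith, by linarith⟩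
  rw [e3]

theorem clear_per {u : ℂ} {q : ℤ} : R.Clear T u (q + 8 * h) c ↔ R.Clear T u q c := by
  have key : ∀ κ r, (∀ φ, R.reg (q + 8 * h) κ r φ → c ∉ T (pol u r φ)) ↔
      ∀ φ, R.reg q κ r φ → c ∉ T (pol u r φ) := by
    intro κ r
    constructor
    · intro h1 φ h2
      rw [← pol_add_two_pi]
      exact h1 _ ((R.reg_per q κ r φ).2 h2)
    · intro h1 φ h2
      have h3 := h1 (φ - 2 * Real.pi) ((R.reg_per q κ r _).1 (by rwa [sub_add_cancel]))
      rwa [← pol_add_two_pi, sub_add_cancel] at h3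
  simp only [Clear, key]

variable {R}

/-- small `κ` -/
theorem ev_lt {δ : ℝ} (hδ : 0 < δ) : ∀ᶠ κ in 𝓝[>] (0 : ℝ), 0 < κ ∧ κ < δ :=
  (eventually_mem_nhdsWithin (a := (0 : ℝ)) (s := Ioi 0)).and
    (nhdsWithin_le_nhds (Iio_mem_nhds hδ))

theorem gap_pos (R : Rays h) (a : ℤ) : 0 < R.θ (a + 1) - R.θ a :=
  sub_pos.2 (R.mono (by omega))

/-- where the points of a slot are -/
theorem reg_mem (R : Rays h) (q : ℤ) : ∀ᶠ κ in 𝓝[>] (0 : ℝ), ∀ r φ, 0 < r → R.reg q κ r φ →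
    (q % 4 = 0 ∧ φ ∈ Ioo (R.θ (q / 4 - 1) + κ) (R.θ (q / 4 + 1) - κ)) ∨
    (q % 4 ≠ 0 ∧ φ ∈ Ioo (R.θ (q / 4)) (R.θ (q / 4 + 1))) := by
  have g1 := R.gap_pos (q / 4)
  have g2 := R.gap_pos (q / 4 - 1)
  rw [sub_add_cancel] at g2
  filter_upwards [ev_lt (half_pos g1), ev_lt (half_pos g2)] with κ hκ hκ' r φ hr hreg
  rw [reg] at hreg
  split_ifs at hreg with h0 h1 h2
  · left
    have := abs_lt.1 hreg.1
    exact ⟨h0, by linarith [this.1, this.2], by linarith [this.1, this.2]⟩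
  · right
    have := hreg.1
    exact ⟨h0, by linarith [this.1, this.2], by linarith [this.1, this.2]⟩
  · right
    exact ⟨h0, by linarith [hreg.1, hreg.2], by linarith [hreg.1, hreg.2]⟩
  · right
    have := hreg.1
    exact ⟨h0, by linarith [this.1, this.2], by linarith [this.1, this.2]⟩

/-- a straight ray in a slot -/
theorem reg_ray (R : Rays h) (q : ℤ) : ∀ᶠ κ in 𝓝[>] (0 : ℝ), ∃ φ,
    ((q % 4 = 0 ∧ φ = R.θ (q / 4)) ∨ (q % 4 ≠ 0 ∧ φ ∈ Ioo (R.θ (q / 4)) (R.θ (q / 4 + 1)))) ∧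
    ∀ᶠ r in 𝓝[>] (0 : ℝ), R.reg q κ r φ := by
  have g1 := R.gap_pos (q / 4)
  filter_upwards [ev_lt (half_pos g1), ev_lt Real.pi_pos] with κ hκ hκ'
  have hsin : 0 < 2 * Real.sin (κ / 2) := by
    have := Real.sin_pos_of_pos_of_lt_pi (x := κ / 2) (by linarith [hκ.1]) (by linarith [hκ'.2])
    linarith
  by_cases h0 : q % 4 = 0
  · refine ⟨R.θ (q / 4), Or.inl ⟨h0, rfl⟩, ?_⟩
    filter_upwards [self_mem_nhdsWithin] with r hr
    rw [reg, if_pos h0, sub_self, abs_zero, Real.sin_zero, abs_zero, mul_zero]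
    exact ⟨hκ.1, hr⟩
  by_cases h1 : q % 4 = 1
  · refine ⟨R.θ (q / 4) + κ / 2, Or.inr ⟨h0, by linarith [hκ.1], by linarith [hκ.2, hκ.1]⟩, ?_⟩
    filter_upwards [ev_lt hsin] with r hr
    rw [reg, if_neg h0, if_pos h1, add_sub_cancel_left]
    exact ⟨⟨by linarith [hκ.1], by linarith [hκ.1]⟩, hr.2⟩
  by_cases h2 : q % 4 = 2
  · refine ⟨(R.θ (q / 4) + R.θ (q / 4 + 1)) / 2, Or.inr ⟨h0, by linarith, by linarith⟩, ?_⟩
    filter_upwards with r
    rw [reg, if_neg h0, if_neg h1, if_pos h2]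
    exact ⟨by linarith [hκ.2], by linarith [hκ.2]⟩
  · refine ⟨R.θ (q / 4 + 1) - κ / 2, Or.inr ⟨h0, by linarith [hκ.1, hκ.2], by linarith [hκ.1]⟩, ?_⟩
    filter_upwards [ev_lt hsin] with r hr
    rw [reg, if_neg h0, if_neg h1, if_neg h2, sub_sub_cancel]
    exact ⟨⟨by linarith [hκ.1], by linarith [hκ.1]⟩, hr.2⟩

/-- **the slots are covered** -/
theorem cover (R : Rays h) (hI : Irr U T) (u : ℂ) (q : ℤ) : ∃ c, ¬ R.Clear T u q c := by
  by_contra hcon
  push Not at hcon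
  have h1 : ∀ᶠ κ in 𝓝[>] (0 : ℝ), ∀ c, ∀ᶠ r in 𝓝[>] (0 : ℝ), ∀ φ,
      R.reg q κ r φ → c ∉ T (pol u r φ) := eventually_all.2 hcon
  obtain ⟨κ, h2, φ, -, h3⟩ := (h1.and (R.reg_ray q)).exists
  obtain ⟨r, h4, h5⟩ := ((eventually_all.2 h2).and h3).exists
  obtain ⟨c, hc⟩ := hI.ne (pol u r φ)
  exact h4 c φ h5 hc

theorem tendsto_pol (u : ℂ) {φ : ℝ → ℝ} : Tendsto (fun r => pol u r (φ r)) (𝓝[>] 0) (𝓝 u) := by
  rw [tendsto_iff_dist_tendsto_zero]
  have h1 : Tendsto (fun r : ℝ => r) (𝓝[>] 0) (𝓝 0) := tendsto_id.mono_left nhdsWithin_le_nhds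
  refine h1.congr' ?_
  filter_upwards [self_mem_nhdsWithin] with r hr
  exact (dist_pol u (le_of_lt hr)).symm

/-- a colour not in the palette is absent from all slots -/
theorem clear_of_notMem (R : Rays h) (hI : Irr U T) {u : ℂ} (hu : c ∉ T u) (q : ℤ) :
    R.Clear T u q c := by
  have h1 : ∀ᶠ x in 𝓝 u, c ∉ T x := (hI.closed c).isOpen_compl.mem_nhds hu
  obtain ⟨ε, hε, h2⟩ := Metric.eventually_nhds_iff.1 h1
  refine Eventually.of_forall fun κ => ?_
  filter_upwards [ev_lt hε] with r hr φ _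
  exact h2 (by rw [dist_pol u hr.1.le]; exact hr.2)

end Rays

end Vale.Agent.P032.Six
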