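import Vale.Agent.P032.R2.H492.Out2
import Vale.Agent.P032.R2.H492.Face

/-!
# P032: the two points behind a contact `{a, c | e, f}`

`WT.pair_only`: a point of `S(z)` with the colours `a, b` has neither `c` nor `d`; `WT.split_s4r`: the
points at `+ 2` and `+ 4` of a contact `{a, c | e, f}` carry both `a, b`, or both `c, d`, or have no
colours of the same pair.
-/

set_option autoImplicit false

open Set Filter Topology Metric

noncomputable section

namespace Vale.Agent.P032.Six.WT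

open Vale.Agent.P032.S5.H767 (pt dist_pt pt_six)

variable {U : Fin 6 → Set ℂ} {T : ℂ → Set (Fin 6)} {z p : ℂ} {a b c d e f : Fin 6}

/-- a point of `S(z)` with `a, b` has not `c` -/
theorem pair_only (H : WT U T) (hz : DPt T z a b c d) (nd : [a, b, c, d, e, f].Nodup)
    (hp : dist p z = 1) (ha : a ∈ T p) (hb : b ∈ T p) : c ∉ T p ∧ d ∉ T p := by
  obtain ⟨⟨ab, ac, ad, ae, af⟩, ⟨bc, bd, be, bf⟩, ⟨cd, ce, cf⟩, ⟨de, df⟩, ef⟩ := nodup_sep nd
  have h4 : (T p).ncard ≤ 4 := H.le4 hz.card.ge hp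
  have key : ∀ i, (i = c ∨ i = d) → i ∈ T p → False := by
    intro i hi hip
    have hia : a ≠ i := by rcases hi with rfl | rfl; exacts [ac, ad]
    have hib : b ≠ i := by rcases hi with rfl | rfl; exacts [bc, bd]
    have hie : i ≠ e := by rcases hi with rfl | rfl; exacts [ce, de]
    have hif : i ≠ f := by rcases hi with rfl | rfl; exacts [cf, df]
    by_cases hef : e ∈ T p ∨ f ∈ T p
    · -- four colours, so `e, f`
      have h44 : 4 ≤ (T p).ncard := by
        rcases hef with h1 | h1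
        · exact Vale.Agent.P032.R2.H492.four_le (i := a) (j := b) (m := i) (t := e)
            (by simp [ab, hia, hib, ae, be, hie]) ha hb hip h1
        · exact Vale.Agent.P032.R2.H492.four_le (i := a) (j := b) (m := i) (t := f)
            (by simp [ab, hia, hib, af, bf, hif]) ha hb hip h1
      obtain ⟨he, hf⟩ := H.ef_of_four hz nd hp h44
      have h5 : ({a, b, i, e, f} : Set (Fin 6)) ⊆ T p := by
        rintro x (rfl | rfl | rfl | rfl | hx)
        · exact ha
        · exact hb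
        · exact hip
        · exact he
        · rw [mem_singleton_iff] at hx; rw [hx]; exact hf
      have h6 := Set.ncard_le_ncard h5 (Set.toFinite _)
      rw [Set.ncard_insert_of_notMem (by simp [ab, hia, ae, af]) (Set.toFinite _),
        card_four (a := b) (b := i) (e := e) (f := f) (by simp [hib, be, bf, hie, hif, ef])] at h6
      omega
    · rw [not_or] at hef
      have hs : T p ⊆ T z := by
        intro x hx
        rw [hz.pal]
        rcases nodup_all609 nd x with h1 | h1 | h1 | h1 | h1 | h1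
        · rw [h1]; simp
        · rw [h1]; simp
        · rw [h1]; simp
        · rw [h1]; simp
        · exact absurd (h1 ▸ hx) hef.1
        · exact absurd (h1 ▸ hx) hef.2
      exact Vale.Agent.P032.R2.H492.insub_mixed H hz (by simp [ab, ac, ad, bc, bd, cd]) hp hs
        (Or.inl rfl) hi ha hip
  exact ⟨key c (Or.inl rfl), key d (Or.inr rfl)⟩

/-- **The two points behind a contact `{a, c | e, f}`.** -/
theorem split_s4r (H : WT U T) (hmin : MinF U T) (hz : DPt T z a b c d)
    (nd : [a, b, c, d, e, f].Nodup) {v : ℝ} (hw : DPt T (pt z v) a c e f) :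
    ((a ∈ T (pt z (v + 2)) ∧ b ∈ T (pt z (v + 2))) ∧ a ∈ T (pt z (v + 4)) ∧ b ∈ T (pt z (v + 4))) ∨
    ((c ∈ T (pt z (v + 2)) ∧ d ∈ T (pt z (v + 2))) ∧ c ∈ T (pt z (v + 4)) ∧ d ∈ T (pt z (v + 4))) ∨
    ((∀ i j, (i = a ∨ i = b) → (j = a ∨ j = b) → ¬ (i ∈ T (pt z (v + 2)) ∧ j ∈ T (pt z (v + 4)))) ∧
      ∀ i j, (i = c ∨ i = d) → (j = c ∨ j = d) →
        ¬ (i ∈ T (pt z (v + 2)) ∧ j ∈ T (pt z (v + 4)))) := by
  have h2 := H.f_out2 hmin hz nd (σ := 1) (Or.inl rfl) hw
  have h4 := H.f_out2 hmin hz nd (σ := -1) (Or.inr rfl) hw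
  have e2 : pt z (v + 2 * 1) = pt z (v + 2) := by congr 1; ring
  have e4 : pt z (v + 2 * -1) = pt z (v + 4) := by
    rw [← pt_six z (v + 2 * -1)]; congr 1; ring
  rw [e2] at h2
  rw [e4] at h4
  have nd' := nodup_swap609 nd
  have pa : ∀ {q : ℂ}, dist q z = 1 → a ∈ T q → b ∈ T q → c ∉ T q ∧ d ∉ T q := fun hq h1 h2 =>
    H.pair_only hz nd hq h1 h2
  have pc : ∀ {q : ℂ}, dist q z = 1 → c ∈ T q → d ∈ T q → a ∉ T q ∧ b ∉ T q := fun hq h1 h2 =>
    H.pair_only hz.swap nd' hq h1 h2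
  rcases h2 with h2 | h2 <;> rcases h4 with h4 | h4
  · exact Or.inl ⟨h2, h4⟩
  · right; right
    obtain ⟨n1, n2⟩ := pa (dist_pt _ _) h2.1 h2.2
    obtain ⟨n3, n4⟩ := pc (dist_pt _ _) h4.1 h4.2
    refine ⟨fun i j _ hj h => ?_, fun i j hi _ h => ?_⟩
    · rcases hj with rfl | rfl
      exacts [n3 h.2, n4 h.2]
    · rcases hi with rfl | rfl
      exacts [n1 h.1, n2 h.1]
  · right; right
    obtain ⟨n1, n2⟩ := pc (dist_pt _ _) h2.1 h2.2
    obtain ⟨n3, n4⟩ := pa (dist_pt _ _) h4.1 h4.2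
    refine ⟨fun i j hi _ h => ?_, fun i j _ hj h => ?_⟩
    · rcases hi with rfl | rfl
      exacts [n1 h.1, n2 h.1]
    · rcases hj with rfl | rfl
      exacts [n3 h.2, n4 h.2]
  · exact Or.inr (Or.inl ⟨h2, h4⟩)

end Vale.Agent.P032.Six.WT
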